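import Vale.Agent.P097.TC.Defs

/-!
# P097 / case [c] / row A5.INST (helper920)

Instances of the limit world theorem (190, note 14637) over the incidence function `TC.Mi`:
honest limit lines and the two isotropic limits.
-/

set_option linter.all false

open Complex Metric Filter Topology Set
open scoped ComplexConjugate

namespace Vale.Agent.P097.H920

open Vale.Agent.P097.TC

theorem isOpen_Sb (b : ℝ) : IsOpen (Sb b) :=
  isOpen_lt (continuous_abs.comp continuous_im) continuous_const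

variable {Λ b : ℝ} {F q : ℂ → ℂ}

theorem Cv.F1 (h : Cv Λ b F q) {x : ℂ} (hx : x ∈ Sb b) : HasDerivAt F (deriv F x) x :=
  (h.dF.differentiableAt ((isOpen_Sb b).mem_nhds hx)).hasDerivAt

theorem Cv.q1 (h : Cv Λ b F q) {x : ℂ} (hx : x ∈ Sb b) : HasDerivAt q (deriv q x) x :=
  (h.dq.differentiableAt ((isOpen_Sb b).mem_nhds hx)).hasDerivAt

theorem Cv.dF1 (h : Cv Λ b F q) : DifferentiableOn ℂ (deriv F) (Sb b) :=
  (h.dF.analyticOnNhd (isOpen_Sb b)).deriv.differentiableOn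

theorem Cv.dq1 (h : Cv Λ b F q) : DifferentiableOn ℂ (deriv q) (Sb b) :=
  (h.dq.analyticOnNhd (isOpen_Sb b)).deriv.differentiableOn

theorem Cv.F2 (h : Cv Λ b F q) {x : ℂ} (hx : x ∈ Sb b) :
    HasDerivAt (deriv F) (deriv (deriv F) x) x :=
  ((Cv.dF1 h).differentiableAt ((isOpen_Sb b).mem_nhds hx)).hasDerivAt

theorem Cv.q2 (h : Cv Λ b F q) {x : ℂ} (hx : x ∈ Sb b) :
    HasDerivAt (deriv q) (deriv (deriv q) x) x :=
  ((Cv.dq1 h).differentiableAt ((isOpen_Sb b).mem_nhds hx)).hasDerivAt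

theorem Cv.L3 (h : Cv Λ b F q) : ((Λ : ℂ)) ^ 3 ≠ 0 := by
  have := h.Λ0.ne'
  exact pow_ne_zero _ (by exact_mod_cast this)

/-- derivative of the incidence function in the position -/
theorem Mi_hasDerivAt (h : Cv Λ b F q) (a p : ℂ) {x : ℂ} (hx : x ∈ Sb b) :
    HasDerivAt (Mi F q a p) (deriv (deriv F) x * (q x * Complex.cos (a - F x) - p) +
      (deriv F x ^ 2 * q x + deriv (deriv q) x) * Complex.sin (a - F x)) x := by
  have hF := Cv.F1 h hx
  have hF2 := Cv.F2 h hx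
  have hq := Cv.q1 h hx
  have hq2 := Cv.q2 h hx
  have ha : HasDerivAt (fun y => a - F y) (-deriv F x) x := by
    simpa using hF.const_sub a
  have hc := ha.ccos
  have hs := ha.csin
  have h1 := hF2.mul (((hq.mul hc).sub_const p))
  have h2 := hq2.mul hs
  have h3 := h1.add h2
  refine h3.congr_deriv ?_
  simp only [Pi.mul_apply]
  ring

/-- the basic identity -/
theorem Mi_deriv (h : Cv Λ b F q) (a p : ℂ) {x : ℂ} (hx : x ∈ Sb b) :
    deriv F x * deriv (Mi F q a p) x =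
      deriv (deriv F) x * Mi F q a p x + (Λ : ℂ) ^ 3 * Complex.sin (a - F x) := by
  rw [(Mi_hasDerivAt h a p hx).deriv, ← h.wr x hx, Mi]
  ring

theorem Mi_deriv_root (h : Cv Λ b F q) {a p x : ℂ} (hx : x ∈ Sb b) (h0 : Mi F q a p x = 0) :
    deriv F x * deriv (Mi F q a p) x = (Λ : ℂ) ^ 3 * Complex.sin (a - F x) := by
  rw [Mi_deriv h a p hx, h0, mul_zero, zero_add]

/-- at a root which is not an R2 point: simple root iff the line is not tangent -/
theorem Mi_simple_iff (h : Cv Λ b F q) {a p x : ℂ} (hx : x ∈ Sb b) (h0 : Mi F q a p x = 0)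
    (hF : deriv F x ≠ 0) :
    deriv (Mi F q a p) x ≠ 0 ↔ Complex.sin (a - F x) ≠ 0 := by
  have := Mi_deriv_root h hx h0
  constructor
  · intro h1 h2
    rw [h2, mul_zero, mul_eq_zero] at this
    tauto
  · intro h1 h2
    rw [h2, mul_zero, eq_comm, mul_eq_zero] at this
    exact this.elim (Cv.L3 h) h1

/-- an R2 point: `q' F'' = - Λ ^ 3` -/
theorem R2_wr (h : Cv Λ b F q) {x : ℂ} (hx : x ∈ Sb b) (hF : deriv F x = 0) :
    deriv q x * deriv (deriv F) x = -(Λ : ℂ) ^ 3 := by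
  have := h.wr x hx
  rw [hF] at this
  rw [← this]
  ring

theorem R2_ne (h : Cv Λ b F q) {x : ℂ} (hx : x ∈ Sb b) (hF : deriv F x = 0) :
    deriv q x ≠ 0 ∧ deriv (deriv F) x ≠ 0 := by
  have h1 := R2_wr h hx hF
  have h2 := Cv.L3 h
  constructor <;> intro h3 <;> rw [h3] at h1 <;> simp at h1 <;> simp [h1] at h2

theorem R2_root (h : Cv Λ b F q) {a p x : ℂ} (hx : x ∈ Sb b) (hF : deriv F x = 0) :
    Mi F q a p x = 0 ↔ Complex.sin (a - F x) = 0 := by
  have h1 := (R2_ne h hx hF).1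
  simp [Mi, hF, h1]

/-- `F'` is not identically zero near any point -/
theorem not_F1 (h : Cv Λ b F q) {x₀ : ℂ} (hx : x₀ ∈ Sb b) : ¬ ∀ᶠ x in 𝓝 x₀, deriv F x = 0 := by
  intro h1
  have h2 : deriv (deriv F) x₀ = 0 := by
    have : deriv F =ᶠ[𝓝 x₀] fun _ => (0 : ℂ) := h1
    rw [this.deriv_eq]
    simp
  exact (R2_ne h hx h1.self_of_nhds).2 h2

/-- the curve is not contained in a line -/
theorem Mi_not_zero (h : Cv Λ b F q) (a p : ℂ) {x₀ : ℂ} (hx : x₀ ∈ Sb b) :
    ¬ ∀ᶠ x in 𝓝 x₀, Mi F q a p x = 0 := by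
  intro h0
  have hS : ∀ᶠ x in 𝓝 x₀, x ∈ Sb b := (isOpen_Sb b).mem_nhds hx
  have hd : ∀ᶠ x in 𝓝 x₀, deriv (Mi F q a p) x = 0 := by
    filter_upwards [h0.eventually_nhds] with x hx0
    have : Mi F q a p =ᶠ[𝓝 x] fun _ => (0 : ℂ) := hx0
    rw [this.deriv_eq]
    simp
  have hs : ∀ᶠ x in 𝓝 x₀, Complex.sin (a - F x) = 0 := by
    filter_upwards [h0, hd, hS] with x h1 h2 h3
    have h4 := Mi_deriv h a p h3
    rw [h1, h2, mul_zero, mul_zero, zero_add, eq_comm, mul_eq_zero] at h4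
    exact h4.resolve_left (Cv.L3 h)
  refine not_F1 h hx ?_
  filter_upwards [hs.eventually_nhds, hS] with x h1 h2
  have h3 : HasDerivAt (fun y => Complex.sin (a - F y))
      (Complex.cos (a - F x) * (-deriv F x)) x := by
    have ha : HasDerivAt (fun y => a - F y) (-deriv F x) x := by
      simpa using (Cv.F1 h h2).const_sub a
    exact ha.csin
  have h4 : (fun y => Complex.sin (a - F y)) =ᶠ[𝓝 x] fun _ => (0 : ℂ) := h1
  have h5 : Complex.cos (a - F x) * (-deriv F x) = 0 := by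
    rw [← h3.deriv, h4.deriv_eq]
    simp
  rcases mul_eq_zero.1 h5 with h6 | h6
  · have h7 := Complex.sin_sq_add_cos_sq (a - F x)
    rw [h6, h1.self_of_nhds] at h7
    norm_num at h7
  · exact neg_eq_zero.1 h6

/-! ### the isotropic incidence functions -/

/-- isotropic limit, `e^{2 i a} → 0`, `2 p e^{i a} → B` -/
noncomputable def Ip (F q : ℂ → ℂ) (B x : ℂ) : ℂ :=
  Complex.exp (I * F x) * (deriv F x * q x + I * deriv q x) - deriv F x * B

/-- isotropic limit, `e^{-2 i a} → 0`, `2 p e^{-i a} → B` -/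
noncomputable def Im' (F q : ℂ → ℂ) (B x : ℂ) : ℂ :=
  Complex.exp (-I * F x) * (deriv F x * q x - I * deriv q x) - deriv F x * B

theorem two_exp_Mi (F q : ℂ → ℂ) (a p x : ℂ) :
    2 * Complex.exp (I * a) * Mi F q a p x =
      Complex.exp (I * F x) * (deriv F x * q x + I * deriv q x) +
      Complex.exp (2 * I * a) * (Complex.exp (-I * F x) * (deriv F x * q x - I * deriv q x)) -
      deriv F x * (2 * p * Complex.exp (I * a)) := by
  have h1 : Complex.exp (I * a) * Complex.exp ((a - F x) * I) =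
      Complex.exp (2 * I * a) * Complex.exp (-I * F x) := by
    rw [← Complex.exp_add, ← Complex.exp_add]; ring_nf
  have h2 : Complex.exp (I * a) * Complex.exp (-(a - F x) * I) = Complex.exp (I * F x) := by
    rw [← Complex.exp_add]; ring_nf
  rw [Mi, Complex.cos, Complex.sin]
  linear_combination (deriv F x * q x - I * deriv q x) * h1 +
    (deriv F x * q x + I * deriv q x) * h2

theorem two_exp_neg_Mi (F q : ℂ → ℂ) (a p x : ℂ) :
    2 * Complex.exp (-I * a) * Mi F q a p x =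
      Complex.exp (-I * F x) * (deriv F x * q x - I * deriv q x) +
      Complex.exp (-(2 * I * a)) * (Complex.exp (I * F x) * (deriv F x * q x + I * deriv q x)) -
      deriv F x * (2 * p * Complex.exp (-I * a)) := by
  have h1 : Complex.exp (-I * a) * Complex.exp ((a - F x) * I) = Complex.exp (-I * F x) := by
    rw [← Complex.exp_add]; ring_nf
  have h2 : Complex.exp (-I * a) * Complex.exp (-(a - F x) * I) =
      Complex.exp (-(2 * I * a)) * Complex.exp (I * F x) := by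
    rw [← Complex.exp_add, ← Complex.exp_add]; ring_nf
  rw [Mi, Complex.cos, Complex.sin]
  linear_combination (deriv F x * q x - I * deriv q x) * h1 +
    (deriv F x * q x + I * deriv q x) * h2

theorem Ip_hasDerivAt (h : Cv Λ b F q) (B : ℂ) {x : ℂ} (hx : x ∈ Sb b) :
    HasDerivAt (Ip F q B) (I * deriv F x * Complex.exp (I * F x) *
      (deriv F x * q x + I * deriv q x) + Complex.exp (I * F x) *
      (deriv (deriv F) x * q x + deriv F x * deriv q x + I * deriv (deriv q) x) -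
      deriv (deriv F) x * B) x := by
  have hF := Cv.F1 h hx
  have hF2 := Cv.F2 h hx
  have hq := Cv.q1 h hx
  have hq2 := Cv.q2 h hx
  have h1 := ((hF.const_mul I).cexp).mul ((hF2.mul hq).add (hq2.const_mul I))
  have h2 := h1.sub (hF2.mul_const B)
  refine h2.congr_deriv ?_
  simp only [Pi.add_apply, Pi.mul_apply]
  ring

theorem Im_hasDerivAt (h : Cv Λ b F q) (B : ℂ) {x : ℂ} (hx : x ∈ Sb b) :
    HasDerivAt (Im' F q B) (-I * deriv F x * Complex.exp (-I * F x) *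
      (deriv F x * q x - I * deriv q x) + Complex.exp (-I * F x) *
      (deriv (deriv F) x * q x + deriv F x * deriv q x - I * deriv (deriv q) x) -
      deriv (deriv F) x * B) x := by
  have hF := Cv.F1 h hx
  have hF2 := Cv.F2 h hx
  have hq := Cv.q1 h hx
  have hq2 := Cv.q2 h hx
  have h1 := ((hF.const_mul (-I)).cexp).mul ((hF2.mul hq).sub (hq2.const_mul I))
  have h2 := h1.sub (hF2.mul_const B)
  refine h2.congr_deriv ?_
  simp only [Pi.sub_apply, Pi.mul_apply]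
  ring

theorem Ip_deriv (h : Cv Λ b F q) (B : ℂ) {x : ℂ} (hx : x ∈ Sb b) :
    deriv F x * deriv (Ip F q B) x =
      deriv (deriv F) x * Ip F q B x + I * (Λ : ℂ) ^ 3 * Complex.exp (I * F x) := by
  rw [(Ip_hasDerivAt h B hx).deriv, ← h.wr x hx, Ip]
  have : I * I = -1 := Complex.I_mul_I
  linear_combination (deriv F x ^ 2 * deriv q x * Complex.exp (I * F x)) * this

theorem Im_deriv (h : Cv Λ b F q) (B : ℂ) {x : ℂ} (hx : x ∈ Sb b) :
    deriv F x * deriv (Im' F q B) x =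
      deriv (deriv F) x * Im' F q B x - I * (Λ : ℂ) ^ 3 * Complex.exp (-I * F x) := by
  rw [(Im_hasDerivAt h B hx).deriv, ← h.wr x hx, Im']
  have : I * I = -1 := Complex.I_mul_I
  linear_combination (deriv F x ^ 2 * deriv q x * Complex.exp (-I * F x)) * this

/-- every root of the isotropic incidence function is simple and not an R2 point -/
theorem Ip_root (h : Cv Λ b F q) {B x : ℂ} (hx : x ∈ Sb b) (h0 : Ip F q B x = 0) :
    deriv (Ip F q B) x ≠ 0 ∧ deriv F x ≠ 0 := by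
  have h1 := Ip_deriv h B hx
  rw [h0, mul_zero, zero_add] at h1
  have h2 : I * (Λ : ℂ) ^ 3 * Complex.exp (I * F x) ≠ 0 :=
    mul_ne_zero (mul_ne_zero I_ne_zero (Cv.L3 h)) (Complex.exp_ne_zero _)
  rw [← h1] at h2
  exact ⟨right_ne_zero_of_mul h2, left_ne_zero_of_mul h2⟩

theorem Im_root (h : Cv Λ b F q) {B x : ℂ} (hx : x ∈ Sb b) (h0 : Im' F q B x = 0) :
    deriv (Im' F q B) x ≠ 0 ∧ deriv F x ≠ 0 := by
  have h1 := Im_deriv h B hx
  rw [h0, mul_zero, zero_sub] at h1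
  have h2 : -(I * (Λ : ℂ) ^ 3 * Complex.exp (-I * F x)) ≠ 0 :=
    neg_ne_zero.2 (mul_ne_zero (mul_ne_zero I_ne_zero (Cv.L3 h)) (Complex.exp_ne_zero _))
  rw [← h1] at h2
  exact ⟨right_ne_zero_of_mul h2, left_ne_zero_of_mul h2⟩

theorem Ip_not_zero (h : Cv Λ b F q) (B : ℂ) {x₀ : ℂ} (hx : x₀ ∈ Sb b) :
    ¬ ∀ᶠ x in 𝓝 x₀, Ip F q B x = 0 := by
  intro h0
  have h1 : Ip F q B =ᶠ[𝓝 x₀] fun _ => (0 : ℂ) := h0
  have h2 : deriv (Ip F q B) x₀ = 0 := by rw [h1.deriv_eq]; simp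
  exact (Ip_root h hx h0.self_of_nhds).1 h2

theorem Im_not_zero (h : Cv Λ b F q) (B : ℂ) {x₀ : ℂ} (hx : x₀ ∈ Sb b) :
    ¬ ∀ᶠ x in 𝓝 x₀, Im' F q B x = 0 := by
  intro h0
  have h1 : Im' F q B =ᶠ[𝓝 x₀] fun _ => (0 : ℂ) := h0
  have h2 : deriv (Im' F q B) x₀ = 0 := by rw [h1.deriv_eq]; simp
  exact (Im_root h hx h0.self_of_nhds).1 h2

/-! ### periodicity -/

theorem Sb_add_one {b : ℝ} {x : ℂ} : x + 1 ∈ Sb b ↔ x ∈ Sb b := by simp [Sb]

theorem deriv_add_one {f : ℂ → ℂ} {b : ℝ} {c : ℂ} (hf : ∀ x ∈ Sb b, f (x + 1) = f x + c) {x : ℂ}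
    (hx : x ∈ Sb b) : deriv f (x + 1) = deriv f x := by
  have h1 : (fun y => f (y + 1)) =ᶠ[𝓝 x] fun y => f y + c := by
    filter_upwards [(isOpen_Sb b).mem_nhds hx] with y hy using hf y hy
  have h2 := h1.deriv_eq
  rw [deriv_comp_add_const, deriv_add_const] at h2
  exact h2

theorem Mi_add_one (hF : ∀ x ∈ Sb b, F (x + 1) = F x + 2 * Real.pi)
    (hq : ∀ x ∈ Sb b, q (x + 1) = q x) (a p : ℂ) {x : ℂ} (hx : x ∈ Sb b) :
    Mi F q a p (x + 1) = Mi F q a p x := by
  have h1 := deriv_add_one hF hx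
  have h2 : deriv q (x + 1) = deriv q x := deriv_add_one (c := 0) (by simpa using hq) hx
  have h3 : a - F (x + 1) = (a - F x) - 2 * Real.pi := by rw [hF x hx]; ring
  rw [Mi, Mi, h1, h2, h3, hq x hx, Complex.cos_sub_two_pi, Complex.sin_sub_two_pi]

theorem Ip_add_one (hF : ∀ x ∈ Sb b, F (x + 1) = F x + 2 * Real.pi)
    (hq : ∀ x ∈ Sb b, q (x + 1) = q x) (B : ℂ) {x : ℂ} (hx : x ∈ Sb b) :
    Ip F q B (x + 1) = Ip F q B x := by
  have h1 := deriv_add_one hF hx
  have h2 : deriv q (x + 1) = deriv q x := deriv_add_one (c := 0) (by simpa using hq) hx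
  have h3 : I * F (x + 1) = I * F x + 2 * Real.pi * I := by rw [hF x hx]; ring
  rw [Ip, Ip, h1, h2, h3, hq x hx, Complex.exp_add, Complex.exp_two_pi_mul_I, mul_one]

theorem Im_add_one (hF : ∀ x ∈ Sb b, F (x + 1) = F x + 2 * Real.pi)
    (hq : ∀ x ∈ Sb b, q (x + 1) = q x) (B : ℂ) {x : ℂ} (hx : x ∈ Sb b) :
    Im' F q B (x + 1) = Im' F q B x := by
  have h1 := deriv_add_one hF hx
  have h2 : deriv q (x + 1) = deriv q x := deriv_add_one (c := 0) (by simpa using hq) hx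
  have h3 : -I * F x = -I * F (x + 1) + 2 * Real.pi * I := by rw [hF x hx]; ring
  rw [Im', Im', h1, h2, h3, hq x hx, Complex.exp_add, Complex.exp_two_pi_mul_I, mul_one]

/-! ### uniform convergence near a point -/

theorem near_comp {ι α β γ : Type*} [TopologicalSpace α] [PseudoMetricSpace β] [ProperSpace β]
    [PseudoMetricSpace γ] {l : Filter ι} {u : ι → α → β} {u₀ : α → β} {z₀ : α} {V : Set α}
    (hV : V ∈ 𝓝 z₀) (hu : TendstoUniformlyOn u u₀ l V) (hc : ContinuousAt u₀ z₀) {Ψ : β → γ}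
    {O : Set β} (hO : IsOpen O) (h0 : u₀ z₀ ∈ O) (hΨ : ContinuousOn Ψ O) :
    ∃ N ∈ 𝓝 z₀, N ⊆ V ∧ (∀ᶠ n in l, ∀ z ∈ N, u n z ∈ O) ∧ (∀ z ∈ N, u₀ z ∈ O) ∧
      TendstoUniformlyOn (fun n z => Ψ (u n z)) (fun z => Ψ (u₀ z)) l N := by
  obtain ⟨r, hr, hrO⟩ := Metric.isOpen_iff.1 hO _ h0
  have hK : IsCompact (closedBall (u₀ z₀) (r / 2)) := isCompact_closedBall _ _
  have hKO : closedBall (u₀ z₀) (r / 2) ⊆ O :=
    (closedBall_subset_ball (by linarith)).trans hrO
  have hUC : UniformContinuousOn Ψ (closedBall (u₀ z₀) (r / 2)) :=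
    hK.uniformContinuousOn_of_continuous (hΨ.mono hKO)
  have h1 : ∀ᶠ z in 𝓝 z₀, u₀ z ∈ ball (u₀ z₀) (r / 4) :=
    hc.eventually (ball_mem_nhds _ (by positivity))
  refine ⟨V ∩ {z | u₀ z ∈ ball (u₀ z₀) (r / 4)}, inter_mem hV h1, inter_subset_left, ?_, ?_, ?_⟩
  · filter_upwards [Metric.tendstoUniformlyOn_iff.1 hu (r / 4) (by positivity)] with n hn z hz
    refine hKO ?_
    have h2 := hn z hz.1
    have h3 : dist (u₀ z) (u₀ z₀) < r / 4 := hz.2
    rw [mem_closedBall]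
    have := dist_triangle_left (u n z) (u₀ z₀) (u₀ z)
    linarith
  · intro z hz
    have h3 : dist (u₀ z) (u₀ z₀) < r / 4 := hz.2
    exact hKO (by rw [mem_closedBall]; linarith)
  · rw [Metric.tendstoUniformlyOn_iff]
    intro ε hε
    obtain ⟨δ, hδ, hδ'⟩ := Metric.uniformContinuousOn_iff.1 hUC ε hε
    filter_upwards [Metric.tendstoUniformlyOn_iff.1 hu (min δ (r / 4)) (by positivity)] with n hn z hz
    have h2 := hn z hz.1
    have h3 : dist (u₀ z) (u₀ z₀) < r / 4 := hz.2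
    refine hδ' _ ?_ _ ?_ (h2.trans_le (min_le_left _ _))
    · rw [mem_closedBall]; linarith
    · rw [mem_closedBall]
      have := dist_triangle_left (u n z) (u₀ z₀) (u₀ z)
      have := h2.trans_le (min_le_right _ _)
      linarith

/-- the data consumed by the limit world theorem at one point `(z₀, x₀)` -/
structure CN {ι E : Type*} [NormedAddCommGroup E] [NormedSpace ℂ E] (l : Filter ι)
    (Mn : ι → E × ℂ → ℂ) (M : E × ℂ → ℂ) (z₀ : E) (x₀ : ℂ) : Prop where
  cn : ∃ N ∈ 𝓝 (z₀, x₀), (∀ᶠ n in l, DifferentiableOn ℂ (Mn n) N) ∧ TendstoUniformlyOn Mn M l N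
  nz : ¬ ∀ᶠ x in 𝓝 x₀, M (z₀, x) = 0

section World

variable {ι E : Type*} [NormedAddCommGroup E] [NormedSpace ℂ E] {l : Filter ι}
variable {al p : ι → E → ℂ} {al' p' : E → ℂ} {z₀ : E} {V : Set E}

theorem pair_unif {f g : ι → E → ℂ} {f' g' : E → ℂ} (hf : TendstoUniformlyOn f f' l V)
    (hg : TendstoUniformlyOn g g' l V) (W : Set ℂ) :
    TendstoUniformlyOn (fun n (w : E × ℂ) => (f n w.1, g n w.1, w.2))
      (fun w : E × ℂ => (f' w.1, g' w.1, w.2)) l (V ×ˢ W) := by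
  rw [Metric.tendstoUniformlyOn_iff] at hf hg ⊢
  intro ε hε
  filter_upwards [hf ε hε, hg ε hε] with n h1 h2 w hw
  have h3 := h1 w.1 hw.1
  have h4 := h2 w.1 hw.1
  simp only [Prod.dist_eq, dist_self]
  exact max_lt h3 (max_lt h4 hε)

theorem contOn_F (h : Cv Λ b F q) : ContinuousOn F (Sb b) := h.dF.continuousOn

/-- **(a) honest limit lines** -/
theorem cn_line (h : Cv Λ b F q) (hV : V ∈ 𝓝 z₀)
    (dal : ∀ᶠ n in l, DifferentiableOn ℂ (al n) V) (dp : ∀ᶠ n in l, DifferentiableOn ℂ (p n) V)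
    (ual : TendstoUniformlyOn al al' l V) (up : TendstoUniformlyOn p p' l V)
    (cal : ContinuousAt al' z₀) (cp : ContinuousAt p' z₀) {x₀ : ℂ} (hx : x₀ ∈ Sb b) :
    CN l (fun n w => Mi F q (al n w.1) (p n w.1) w.2) (fun w => Mi F q (al' w.1) (p' w.1) w.2)
      z₀ x₀ := by
  refine ⟨?_, Mi_not_zero h (al' z₀) (p' z₀) hx⟩
  have hW : V ×ˢ Sb b ∈ 𝓝 (z₀, x₀) := prod_mem_nhds hV ((isOpen_Sb b).mem_nhds hx)
  have hO : IsOpen {w : ℂ × ℂ × ℂ | w.2.2 ∈ Sb b} :=
    (isOpen_Sb b).preimage (continuous_snd.comp continuous_snd)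
  have hΨ : ContinuousOn (fun w : ℂ × ℂ × ℂ => Mi F q w.1 w.2.1 w.2.2)
      {w : ℂ × ℂ × ℂ | w.2.2 ∈ Sb b} := by
    have c0 : ContinuousOn (fun w : ℂ × ℂ × ℂ => w.2.2) {w : ℂ × ℂ × ℂ | w.2.2 ∈ Sb b} :=
      (continuous_snd.comp continuous_snd).continuousOn
    have cF := h.dF.continuousOn.comp c0 (fun w hw => hw)
    have cq := h.dq.continuousOn.comp c0 (fun w hw => hw)
    have cF1 := (Cv.dF1 h).continuousOn.comp c0 (fun w hw => hw)
    have cq1 := (Cv.dq1 h).continuousOn.comp c0 (fun w hw => hw)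
    have ca : ContinuousOn (fun w : ℂ × ℂ × ℂ => w.1) {w : ℂ × ℂ × ℂ | w.2.2 ∈ Sb b} :=
      continuous_fst.continuousOn
    have cp : ContinuousOn (fun w : ℂ × ℂ × ℂ => w.2.1) {w : ℂ × ℂ × ℂ | w.2.2 ∈ Sb b} :=
      (continuous_fst.comp continuous_snd).continuousOn
    have cs := Complex.continuous_sin.comp_continuousOn (ca.sub cF)
    have cc := Complex.continuous_cos.comp_continuousOn (ca.sub cF)
    exact (cF1.mul ((cq.mul cc).sub cp)).add (cq1.mul cs)
  have hc : ContinuousAt (fun w : E × ℂ => (al' w.1, p' w.1, w.2)) (z₀, x₀) := by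
    have c1 : ContinuousAt (fun w : E × ℂ => al' w.1) (z₀, x₀) :=
      ContinuousAt.comp (f := Prod.fst) cal continuousAt_fst
    have c2 : ContinuousAt (fun w : E × ℂ => p' w.1) (z₀, x₀) :=
      ContinuousAt.comp (f := Prod.fst) cp continuousAt_fst
    exact c1.prodMk (c2.prodMk continuousAt_snd)
  obtain ⟨N, hN, hNV, -, -, hU⟩ := near_comp hW (pair_unif ual up (Sb b)) hc hO
    (by exact hx) hΨ
  refine ⟨N, hN, ?_, hU⟩
  filter_upwards [dal, dp] with n h1 h2
  have m1 : MapsTo (fun w : E × ℂ => w.1) N V := fun w hw => (hNV hw).1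
  have m2 : MapsTo (fun w : E × ℂ => w.2) N (Sb b) := fun w hw => (hNV hw).2
  have da := h1.comp (differentiableOn_fst (s := N)) m1
  have dp' := h2.comp (differentiableOn_fst (s := N)) m1
  have dF := h.dF.comp (differentiableOn_snd (s := N)) m2
  have dq := h.dq.comp (differentiableOn_snd (s := N)) m2
  have dF1 := (Cv.dF1 h).comp (differentiableOn_snd (s := N)) m2
  have dq1 := (Cv.dq1 h).comp (differentiableOn_snd (s := N)) m2
  exact (dF1.mul ((dq.mul (da.sub dF).ccos).sub dp')).add (dq1.mul (da.sub dF).csin)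

/-- **(b) isotropic limit, sign +** -/
theorem cn_iso (h : Cv Λ b F q) {B' : E → ℂ} (hV : V ∈ 𝓝 z₀)
    (dal : ∀ᶠ n in l, DifferentiableOn ℂ (al n) V) (dp : ∀ᶠ n in l, DifferentiableOn ℂ (p n) V)
    (ual : TendstoUniformlyOn (fun n z => Complex.exp (2 * I * al n z)) (fun _ => 0) l V)
    (up : TendstoUniformlyOn (fun n z => 2 * p n z * Complex.exp (I * al n z)) B' l V)
    (cB : ContinuousAt B' z₀) {x₀ : ℂ} (hx : x₀ ∈ Sb b) :
    CN l (fun n w => 2 * Complex.exp (I * al n w.1) * Mi F q (al n w.1) (p n w.1) w.2)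
      (fun w => Ip F q (B' w.1) w.2) z₀ x₀ := by
  refine ⟨?_, Ip_not_zero h (B' z₀) hx⟩
  have hW : V ×ˢ Sb b ∈ 𝓝 (z₀, x₀) := prod_mem_nhds hV ((isOpen_Sb b).mem_nhds hx)
  have hO : IsOpen {w : ℂ × ℂ × ℂ | w.2.2 ∈ Sb b} :=
    (isOpen_Sb b).preimage (continuous_snd.comp continuous_snd)
  have hΨ : ContinuousOn (fun w : ℂ × ℂ × ℂ =>
      Complex.exp (I * F w.2.2) * (deriv F w.2.2 * q w.2.2 + I * deriv q w.2.2) +
      w.1 * (Complex.exp (-I * F w.2.2) * (deriv F w.2.2 * q w.2.2 - I * deriv q w.2.2)) -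
      deriv F w.2.2 * w.2.1) {w : ℂ × ℂ × ℂ | w.2.2 ∈ Sb b} := by
    have c0 : ContinuousOn (fun w : ℂ × ℂ × ℂ => w.2.2) {w : ℂ × ℂ × ℂ | w.2.2 ∈ Sb b} :=
      (continuous_snd.comp continuous_snd).continuousOn
    have cF := h.dF.continuousOn.comp c0 (fun w hw => hw)
    have cq := h.dq.continuousOn.comp c0 (fun w hw => hw)
    have cF1 := (Cv.dF1 h).continuousOn.comp c0 (fun w hw => hw)
    have cq1 := (Cv.dq1 h).continuousOn.comp c0 (fun w hw => hw)
    have ca : ContinuousOn (fun w : ℂ × ℂ × ℂ => w.1) {w : ℂ × ℂ × ℂ | w.2.2 ∈ Sb b} :=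
      continuous_fst.continuousOn
    have cp : ContinuousOn (fun w : ℂ × ℂ × ℂ => w.2.1) {w : ℂ × ℂ × ℂ | w.2.2 ∈ Sb b} :=
      (continuous_fst.comp continuous_snd).continuousOn
    have e1 := Complex.continuous_exp.comp_continuousOn (cF.const_smul I)
    have e2 := Complex.continuous_exp.comp_continuousOn (cF.const_smul (-I))
    exact ((e1.mul ((cF1.mul cq).add (cq1.const_smul I))).add
      (ca.mul (e2.mul ((cF1.mul cq).sub (cq1.const_smul I))))).sub (cF1.mul cp)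
  have hc : ContinuousAt (fun w : E × ℂ => ((0 : ℂ), B' w.1, w.2)) (z₀, x₀) := by
    have c2 : ContinuousAt (fun w : E × ℂ => B' w.1) (z₀, x₀) :=
      ContinuousAt.comp (f := Prod.fst) cB continuousAt_fst
    exact continuousAt_const.prodMk (c2.prodMk continuousAt_snd)
  obtain ⟨N, hN, hNV, -, -, hU⟩ := near_comp hW (pair_unif ual up (Sb b)) hc hO
    (by exact hx) hΨ
  refine ⟨N, hN, ?_, ?_⟩
  · filter_upwards [dal, dp] with n h1 h2
    have m1 : MapsTo (fun w : E × ℂ => w.1) N V := fun w hw => (hNV hw).1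
    have m2 : MapsTo (fun w : E × ℂ => w.2) N (Sb b) := fun w hw => (hNV hw).2
    have da := h1.comp (differentiableOn_fst (s := N)) m1
    have dp' := h2.comp (differentiableOn_fst (s := N)) m1
    have dF := h.dF.comp (differentiableOn_snd (s := N)) m2
    have dq := h.dq.comp (differentiableOn_snd (s := N)) m2
    have dF1 := (Cv.dF1 h).comp (differentiableOn_snd (s := N)) m2
    have dq1 := (Cv.dq1 h).comp (differentiableOn_snd (s := N)) m2
    exact (((da.const_mul I).cexp.const_mul 2)).mul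
      ((dF1.mul ((dq.mul (da.sub dF).ccos).sub dp')).add (dq1.mul (da.sub dF).csin))
  · refine (hU.congr (Eventually.of_forall fun n w hw => ?_)).congr_right fun w hw => ?_
    · exact (two_exp_Mi F q _ _ _).symm
    · simp [Ip]

/-- **(c) isotropic limit, sign -** -/
theorem cn_iso' (h : Cv Λ b F q) {B' : E → ℂ} (hV : V ∈ 𝓝 z₀)
    (dal : ∀ᶠ n in l, DifferentiableOn ℂ (al n) V) (dp : ∀ᶠ n in l, DifferentiableOn ℂ (p n) V)
    (ual : TendstoUniformlyOn (fun n z => Complex.exp (-(2 * I * al n z))) (fun _ => 0) l V)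
    (up : TendstoUniformlyOn (fun n z => 2 * p n z * Complex.exp (-I * al n z)) B' l V)
    (cB : ContinuousAt B' z₀) {x₀ : ℂ} (hx : x₀ ∈ Sb b) :
    CN l (fun n w => 2 * Complex.exp (-I * al n w.1) * Mi F q (al n w.1) (p n w.1) w.2)
      (fun w => Im' F q (B' w.1) w.2) z₀ x₀ := by
  refine ⟨?_, Im_not_zero h (B' z₀) hx⟩
  have hW : V ×ˢ Sb b ∈ 𝓝 (z₀, x₀) := prod_mem_nhds hV ((isOpen_Sb b).mem_nhds hx)
  have hO : IsOpen {w : ℂ × ℂ × ℂ | w.2.2 ∈ Sb b} :=
    (isOpen_Sb b).preimage (continuous_snd.comp continuous_snd)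
  have hΨ : ContinuousOn (fun w : ℂ × ℂ × ℂ =>
      Complex.exp (-I * F w.2.2) * (deriv F w.2.2 * q w.2.2 - I * deriv q w.2.2) +
      w.1 * (Complex.exp (I * F w.2.2) * (deriv F w.2.2 * q w.2.2 + I * deriv q w.2.2)) -
      deriv F w.2.2 * w.2.1) {w : ℂ × ℂ × ℂ | w.2.2 ∈ Sb b} := by
    have c0 : ContinuousOn (fun w : ℂ × ℂ × ℂ => w.2.2) {w : ℂ × ℂ × ℂ | w.2.2 ∈ Sb b} :=
      (continuous_snd.comp continuous_snd).continuousOn
    have cF := h.dF.continuousOn.comp c0 (fun w hw => hw)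
    have cq := h.dq.continuousOn.comp c0 (fun w hw => hw)
    have cF1 := (Cv.dF1 h).continuousOn.comp c0 (fun w hw => hw)
    have cq1 := (Cv.dq1 h).continuousOn.comp c0 (fun w hw => hw)
    have ca : ContinuousOn (fun w : ℂ × ℂ × ℂ => w.1) {w : ℂ × ℂ × ℂ | w.2.2 ∈ Sb b} :=
      continuous_fst.continuousOn
    have cp : ContinuousOn (fun w : ℂ × ℂ × ℂ => w.2.1) {w : ℂ × ℂ × ℂ | w.2.2 ∈ Sb b} :=
      (continuous_fst.comp continuous_snd).continuousOn
    have e1 := Complex.continuous_exp.comp_continuousOn (cF.const_smul I)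
    have e2 := Complex.continuous_exp.comp_continuousOn (cF.const_smul (-I))
    exact ((e2.mul ((cF1.mul cq).sub (cq1.const_smul I))).add
      (ca.mul (e1.mul ((cF1.mul cq).add (cq1.const_smul I))))).sub (cF1.mul cp)
  have hc : ContinuousAt (fun w : E × ℂ => ((0 : ℂ), B' w.1, w.2)) (z₀, x₀) := by
    have c2 : ContinuousAt (fun w : E × ℂ => B' w.1) (z₀, x₀) :=
      ContinuousAt.comp (f := Prod.fst) cB continuousAt_fst
    exact continuousAt_const.prodMk (c2.prodMk continuousAt_snd)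
  obtain ⟨N, hN, hNV, -, -, hU⟩ := near_comp hW (pair_unif ual up (Sb b)) hc hO
    (by exact hx) hΨ
  refine ⟨N, hN, ?_, ?_⟩
  · filter_upwards [dal, dp] with n h1 h2
    have m1 : MapsTo (fun w : E × ℂ => w.1) N V := fun w hw => (hNV hw).1
    have m2 : MapsTo (fun w : E × ℂ => w.2) N (Sb b) := fun w hw => (hNV hw).2
    have da := h1.comp (differentiableOn_fst (s := N)) m1
    have dp' := h2.comp (differentiableOn_fst (s := N)) m1
    have dF := h.dF.comp (differentiableOn_snd (s := N)) m2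
    have dq := h.dq.comp (differentiableOn_snd (s := N)) m2
    have dF1 := (Cv.dF1 h).comp (differentiableOn_snd (s := N)) m2
    have dq1 := (Cv.dq1 h).comp (differentiableOn_snd (s := N)) m2
    exact (((da.const_mul (-I)).cexp.const_mul 2)).mul
      ((dF1.mul ((dq.mul (da.sub dF).ccos).sub dp')).add (dq1.mul (da.sub dF).csin))
  · refine (hU.congr (Eventually.of_forall fun n w hw => ?_)).congr_right fun w hw => ?_
    · exact (two_exp_neg_Mi F q _ _ _).symm
    · simp [Im']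

end World

end Vale.Agent.P097.H920
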