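import Vale.Agent.P097.H920.World
import Vale.Agent.P097.H190.Ult

/-!
# P097 / case [c] / block (AI) (helper920): the core of PAI

Along an ultrafilter of windows: positions below the edge (`PD`), TOUCH, mid level at one point,
lines convergent on the wide box (honest or isotropic); not tangent in the honest case. This is
contradictory.
-/

set_option linter.all false

open Complex Metric Filter Topology Set
open scoped ComplexConjugate

namespace Vale.Agent.P097.H920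

open Vale.Agent.P097.TC
open Vale.Agent.P097.H190.EN (Dom Low isOpen_dom)
open Vale.Agent.P097.H190.Ult

variable {Λ b : ℝ} {F q : ℂ → ℂ}

/-- the base box -/
def GB : Set (ℂ × ℂ) := {p | p.1.im < 0 ∧ 0 < p.2.im}

/-- the wide box -/
def WB (d : ℝ) : Set (ℂ × ℂ) := {p | 0 < p.2.im ∧ p.1.im < d * p.2.im}

theorem isOpen_GB : IsOpen GB :=
  (isOpen_lt (continuous_im.comp continuous_fst) continuous_const).inter
    (isOpen_lt continuous_const (continuous_im.comp continuous_snd))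

theorem isOpen_WB (d : ℝ) : IsOpen (WB d) :=
  (isOpen_lt continuous_const (continuous_im.comp continuous_snd)).inter
    (isOpen_lt (continuous_im.comp continuous_fst)
      (continuous_const.mul (continuous_im.comp continuous_snd)))

theorem convex_GB : Convex ℝ GB := by
  rintro x ⟨hx1, hx2⟩ y ⟨hy1, hy2⟩ a c ha hc hac
  have e1 : (a • x + c • y).1.im = a * x.1.im + c * y.1.im := by simp
  have e2 : (a • x + c • y).2.im = a * x.2.im + c * y.2.im := by simp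
  show (a • x + c • y).1.im < 0 ∧ 0 < (a • x + c • y).2.im
  rw [e1, e2]
  rcases ha.eq_or_lt with h | h
  · have : c = 1 := by linarith
    subst this
    rw [← h]
    constructor <;> linarith
  · have h1 := mul_neg_of_pos_of_neg h hx1
    have h2 := mul_nonpos_of_nonneg_of_nonpos hc hy1.le
    have h3 := mul_pos h hx2
    have h4 := mul_nonneg hc hy2.le
    constructor <;> linarith

theorem GB_sub_WB {d : ℝ} (hd : 0 ≤ d) : GB ⊆ WB d := fun z hz =>
  ⟨hz.2, lt_of_lt_of_le hz.1 (mul_nonneg hd hz.2.le)⟩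

theorem Mi_add_int (hF : ∀ x ∈ Sb b, F (x + 1) = F x + 2 * Real.pi)
    (hq : ∀ x ∈ Sb b, q (x + 1) = q x) (a p : ℂ) {x : ℂ} (hx : x ∈ Sb b) (k : ℤ) :
    Mi F q a p (x + k) = Mi F q a p x := by
  have hs : ∀ j : ℤ, x + (j : ℂ) ∈ Sb b := fun j => by simpa [Sb] using hx
  induction k using Int.induction_on with
  | zero => simp
  | succ i ih =>
    have h1 := Mi_add_one hF hq a p (hs (i : ℤ))
    rw [← ih, ← h1]
    congr 1
    push_cast; ring
  | pred i ih =>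
    have h1 := Mi_add_one hF hq a p (hs (-(i : ℤ) - 1))
    rw [← ih, ← h1]
    congr 1
    push_cast; ring

theorem F_add_int (hF : ∀ x ∈ Sb b, F (x + 1) = F x + 2 * Real.pi) {x : ℂ} (hx : x ∈ Sb b)
    (k : ℤ) : F (x + k) = F x + k * (2 * Real.pi) := by
  have hs : ∀ j : ℤ, x + (j : ℂ) ∈ Sb b := fun j => by simpa [Sb] using hx
  induction k using Int.induction_on with
  | zero => simp
  | succ i ih =>
    have h1 := hF _ (hs (i : ℤ))
    have e1 : x + ((i : ℤ) : ℂ) + 1 = x + ((i : ℤ) + 1 : ℤ) := by push_cast; ring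
    rw [e1, ih] at h1
    rw [h1]
    push_cast; ring
  | pred i ih =>
    have h1 := hF _ (hs (-(i : ℤ) - 1))
    have e1 : x + ((-(i : ℤ) - 1 : ℤ) : ℂ) + 1 = x + (-(i : ℤ) : ℤ) := by push_cast; ring
    rw [e1, ih] at h1
    have h2 : F (x + ((-(i : ℤ) - 1 : ℤ) : ℂ)) = F x + ((-(i : ℤ) : ℤ) : ℂ) * (2 * Real.pi) -
        2 * Real.pi := by rw [h1]; ring
    rw [h2]
    push_cast; ring

/-- the incidence function is jointly continuous -/
theorem Mi_contAt (h : Cv Λ b F q) {a p x : ℂ} (hx : x ∈ Sb b) :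
    ContinuousAt (fun w : ℂ × ℂ × ℂ => Mi F q w.1 w.2.1 w.2.2) (a, p, x) := by
  have hn := (isOpen_Sb b).mem_nhds hx
  have c0 : ContinuousAt (fun w : ℂ × ℂ × ℂ => w.2.2) (a, p, x) := by fun_prop
  have cF : ContinuousAt (fun w : ℂ × ℂ × ℂ => F w.2.2) (a, p, x) :=
    ContinuousAt.comp (f := fun w : ℂ × ℂ × ℂ => w.2.2) (g := F)
      (h.dF.continuousOn.continuousAt hn) c0
  have cq : ContinuousAt (fun w : ℂ × ℂ × ℂ => q w.2.2) (a, p, x) :=
    ContinuousAt.comp (f := fun w : ℂ × ℂ × ℂ => w.2.2) (g := q)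
      (h.dq.continuousOn.continuousAt hn) c0
  have cF1 : ContinuousAt (fun w : ℂ × ℂ × ℂ => deriv F w.2.2) (a, p, x) :=
    ContinuousAt.comp (f := fun w : ℂ × ℂ × ℂ => w.2.2) (g := deriv F)
      ((Cv.dF1 h).continuousOn.continuousAt hn) c0
  have cq1 : ContinuousAt (fun w : ℂ × ℂ × ℂ => deriv q w.2.2) (a, p, x) :=
    ContinuousAt.comp (f := fun w : ℂ × ℂ × ℂ => w.2.2) (g := deriv q)
      ((Cv.dq1 h).continuousOn.continuousAt hn) c0
  have ca : ContinuousAt (fun w : ℂ × ℂ × ℂ => w.1) (a, p, x) := by fun_prop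
  have cp : ContinuousAt (fun w : ℂ × ℂ × ℂ => w.2.1) (a, p, x) := by fun_prop
  have cs : ContinuousAt (fun w : ℂ × ℂ × ℂ => Complex.sin (w.1 - F w.2.2)) (a, p, x) :=
    Complex.continuous_sin.continuousAt.comp (ca.sub cF)
  have cc : ContinuousAt (fun w : ℂ × ℂ × ℂ => Complex.cos (w.1 - F w.2.2)) (a, p, x) :=
    Complex.continuous_cos.continuousAt.comp (ca.sub cF)
  exact (cF1.mul ((cq.mul cc).sub cp)).add (cq1.mul cs)

/-- locally uniform convergence on an open set is uniform near every point -/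
theorem tlu_near {ι X Y : Type*} [PseudoMetricSpace X] [ProperSpace X] [PseudoMetricSpace Y]
    {l : Filter ι} {f : ι → X → Y} {g : X → Y} {D : Set X} (hD : IsOpen D)
    (h : TendstoLocallyUniformlyOn f g l D) {z : X} (hz : z ∈ D) :
    ∃ r > 0, ∀ r' ≤ r, ball z r' ⊆ D ∧ TendstoUniformlyOn f g l (ball z r') := by
  obtain ⟨r, hr, hrD⟩ := Metric.isOpen_iff.1 hD z hz
  refine ⟨r / 2, by positivity, fun r' hr' => ?_⟩
  have h1 : closedBall z (r / 2) ⊆ D := (closedBall_subset_ball (by linarith)).trans hrD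
  have h2 : ball z r' ⊆ closedBall z (r / 2) :=
    (ball_subset_ball hr').trans ball_subset_closedBall
  refine ⟨h2.trans h1, ?_⟩
  exact ((tendstoLocallyUniformlyOn_iff_forall_isCompact hD).1 h _ h1
    (isCompact_closedBall _ _)).mono h2

/-- **the data about the position** along an ultrafilter of windows -/
structure PD {ι : Type*} (l : Filter ι) (b : ℝ) (F q : ℂ → ℂ) (al p th : ι → ℂ × ℂ → ℂ) :
    Prop where
  pos : ∀ z ∈ GB, ∃ V ∈ 𝓝 z, ∀ᶠ n in l, DifferentiableOn ℂ (th n) V ∧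
    ∀ z' ∈ V, th n z' ∈ Sb b ∧ Mi F q (al n z') (p n z') (th n z') = 0
  mid : ∃ z₀ ∈ GB, ∃ η > 0, ∀ᶠ n in l, |(th n z₀).im| ≤ b - η
  touch : ∀ (a : ℝ) (w₀ : ℂ), 0 < w₀.im → |w₀.re| ≤ w₀.im / 2 → ∀ δ₀ > 0, ∃ ε > 0,
    ∀ᶠ n in l, ¬ ∃ g : ℂ × ℂ → ℂ, DifferentiableOn ℂ g (ball ((a : ℂ), w₀) δ₀) ∧
      ∀ z ∈ ball ((a : ℂ), w₀) δ₀, |(g z).im| < b ∧ (z.1.im ≤ -ε → g z = th n z)

section

variable {ι : Type*} {U : Ultrafilter ι} {al p th : ι → ℂ × ℂ → ℂ}

/-- limit of the positions -/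
theorem PD.lim (h : Cv Λ b F q) (P : PD (U : Filter ι) b F q al p th) :
    ∃ (N : ι → ℤ) (θ : ℂ × ℂ → ℂ), DifferentiableOn ℂ θ GB ∧
      TendstoLocallyUniformlyOn (fun n z => th n z - (N n : ℂ)) θ (U : Filter ι) GB ∧
      ∀ z ∈ GB, θ z ∈ Sb b := by
  obtain ⟨z₀, hz₀, η, hη, hmid⟩ := P.mid
  have hf : LocStrip (U : Filter ι) th b GB := by
    intro z hz
    obtain ⟨V, hV, hn⟩ := P.pos z hz
    obtain ⟨r, hr, hrV⟩ := Metric.mem_nhds_iff.1 hV
    refine ⟨r, hr, hn.mono fun n h1 => ⟨h1.1.mono hrV, fun y hy => ?_⟩⟩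
    have h2 : |(th n y).im| < b := (h1.2 y (hrV hy)).1
    exact h2.le
  obtain ⟨N, θ, -, h1, h2, h3, -⟩ := ult_strip U isOpen_GB convex_GB.isPreconnected h.b0 hη hf
    hz₀ hmid
  exact ⟨N, θ, h1, h2, fun z hz => h3 z hz⟩

theorem dom_sub_GB {w₀ : ℂ} : Dom w₀ (w₀.im / 2) ⊆ GB := by
  rintro z ⟨h1, h2⟩
  refine ⟨h1, ?_⟩
  rw [mem_ball, dist_eq_norm] at h2
  have h3 := (Complex.abs_im_le_norm (z.2 - w₀)).trans h2.le
  rw [sub_im] at h3
  have h4 := (abs_le.1 h3).1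
  have h5 : 0 ≤ ‖z.2 - w₀‖ := norm_nonneg _
  by_contra hcon
  push Not at hcon
  have h6 : w₀.im ≤ 0 := by linarith
  linarith

/-- the position data on one slice -/
theorem PD.toPos (hF : ∀ x ∈ Sb b, F (x + 1) = F x + 2 * Real.pi)
    (hq : ∀ x ∈ Sb b, q (x + 1) = q x) (P : PD (U : Filter ι) b F q al p th)
    {N : ι → ℤ} {θ : ℂ × ℂ → ℂ}
    (hlim : TendstoLocallyUniformlyOn (fun n z => th n z - (N n : ℂ)) θ (U : Filter ι) GB)
    (hθ : ∀ z ∈ GB, θ z ∈ Sb b) {w₀ : ℂ} (hw : 0 < w₀.im) (hw' : |w₀.re| ≤ w₀.im / 2) (R : ℝ) :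
    Pos (U : Filter ι) b R F q w₀ (w₀.im / 2) al p (fun n z => th n z - (N n : ℂ)) θ where
  ρ0 := by positivity
  lim := hlim.mono dom_sub_GB
  reg := by
    intro z hz
    obtain ⟨V, hV, hn⟩ := P.pos z (dom_sub_GB hz)
    refine ⟨V, hV, hn.mono fun n h1 => ⟨h1.1.sub_const _, fun z' hz' => ?_⟩⟩
    obtain ⟨h2, h3⟩ := h1.2 z' hz'
    refine ⟨by simpa [Sb] using h2, ?_⟩
    have h4 := Mi_add_int hF hq (al n z') (p n z') h2 (-N n)
    rw [h3] at h4
    rw [← h4]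
    congr 1
    push_cast; ring
  str := fun z hz => hθ z (dom_sub_GB hz)
  touch := by
    intro c hc δ hδ
    obtain ⟨ε, hε, hev⟩ := P.touch c w₀ hw hw' δ hδ
    refine ⟨ε, hε, (hev.mono fun n hn => ?_).frequently⟩
    rintro ⟨g, hg1, hg2⟩
    apply hn
    refine ⟨fun z => g z + (N n : ℂ), ?_, fun z hz => ?_⟩
    · exact (hg1.differentiableOn).add_const _
    · obtain ⟨h1, -, -, h4⟩ := hg2 z hz
      have h1' : |(g z).im| < b := h1
      refine ⟨by simpa using h1', fun hz' => ?_⟩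
      show g z + (N n : ℂ) = th n z
      rw [h4 hz']
      ring

/-- **PAI, honest lines**: the limit world must be tangent -/
theorem pai_H (h : Cv Λ b F q) (hF : ∀ x ∈ Sb b, F (x + 1) = F x + 2 * Real.pi)
    (hq : ∀ x ∈ Sb b, q (x + 1) = q x) (P : PD (U : Filter ι) b F q al p th) {d : ℝ} (hd : 0 < d)
    {N' : ι → ℤ} {al' p' : ℂ × ℂ → ℂ}
    (hdf : ∀ z ∈ WB d, ∃ V ∈ 𝓝 z, ∀ᶠ n in (U : Filter ι), DifferentiableOn ℂ (al n) V ∧
      DifferentiableOn ℂ (p n) V)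
    (hal : TendstoLocallyUniformlyOn (fun n z => al n z - 2 * Real.pi * N' n) al'
      (U : Filter ι) (WB d))
    (hp : TendstoLocallyUniformlyOn p p' (U : Filter ι) (WB d))
    {z₁ : ℂ × ℂ} (hz₁ : z₁ ∈ GB) {c : ℝ} (hc : 0 < c)
    (hnt : ∀ᶠ n in (U : Filter ι), c ≤ ‖Complex.sin (al n z₁ - F (th n z₁))‖) : False := by
  obtain ⟨N, θ, dθ, hlim, hθ⟩ := P.lim h
  have hGW : GB ⊆ WB d := GB_sub_WB hd.le
  -- near every point of the wide box
  have hnear : ∀ z ∈ WB d, ∃ V ∈ 𝓝 z, V ⊆ WB d ∧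
      (∀ᶠ n in (U : Filter ι), DifferentiableOn ℂ (al n) V ∧ DifferentiableOn ℂ (p n) V) ∧
      TendstoUniformlyOn (fun n z => al n z - 2 * Real.pi * N' n) al' (U : Filter ι) V ∧
      TendstoUniformlyOn p p' (U : Filter ι) V := by
    intro z hz
    obtain ⟨V, hV, hVd⟩ := hdf z hz
    obtain ⟨r₁, hr₁, h1⟩ := tlu_near (isOpen_WB d) hal hz
    obtain ⟨r₂, hr₂, h2⟩ := tlu_near (isOpen_WB d) hp hz
    obtain ⟨r₃, hr₃, h3⟩ := Metric.mem_nhds_iff.1 hV
    set r := min r₁ (min r₂ r₃) with hr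
    have hr0 : 0 < r := by positivity
    have e1 : r ≤ r₁ := min_le_left _ _
    have e2 : r ≤ r₂ := (min_le_right _ _).trans (min_le_left _ _)
    have e3 : r ≤ r₃ := (min_le_right _ _).trans (min_le_right _ _)
    refine ⟨ball z r, ball_mem_nhds _ hr0, (h1 r e1).1, ?_, (h1 r e1).2, (h2 r e2).2⟩
    exact hVd.mono fun n hn => ⟨hn.1.mono ((ball_subset_ball e3).trans h3),
      hn.2.mono ((ball_subset_ball e3).trans h3)⟩
  have hdal : DifferentiableOn ℂ al' (WB d) := by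
    intro z hz
    obtain ⟨V, hV, -, hVd, hu, -⟩ := hnear z hz
    obtain ⟨r, hr, hrV⟩ := Metric.mem_nhds_iff.1 hV
    have h1 : AnalyticOnNhd ℂ al' (ball z r) := by
      obtain ⟨g, hg, hg2, -⟩ := montel_full U (isOpen_ball (x := z) (ε := r))
        (f := fun n z => al n z - 2 * Real.pi * N' n) (by
          intro x hx
          obtain ⟨s, hs, hsr⟩ := Metric.isOpen_iff.1 isOpen_ball x hx
          have hcx : ContinuousAt al' x := by
            have : ContinuousOn al' V := hu.continuousOn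
              (hVd.mono fun n hn => (hn.1.sub_const _).continuousOn).frequently
            exact this.continuousAt (mem_of_superset (isOpen_ball.mem_nhds hx) hrV)
          obtain ⟨s', hs', hs'2⟩ := Metric.continuousAt_iff.1 hcx 1 one_pos
          refine ⟨min s s', by positivity, ‖al' x‖ + 2, ?_⟩
          filter_upwards [hVd, Metric.tendstoUniformlyOn_iff.1 hu 1 one_pos] with n hn1 hn2
          refine ⟨(hn1.1.sub_const _).mono ((ball_subset_ball (min_le_left _ _)).trans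
            (hsr.trans hrV)), fun y hy => ?_⟩
          have hy1 : y ∈ V := hrV (hsr (ball_subset_ball (min_le_left _ _) hy))
          have hy2 := hs'2 (mem_ball.1 (ball_subset_ball (min_le_right _ _) hy))
          have hy3 := hn2 y hy1
          rw [dist_eq_norm] at hy2 hy3
          have e1 : al n y - 2 * Real.pi * N' n = al' x + (al' y - al' x) -
              (al' y - (al n y - 2 * Real.pi * N' n)) := by ring
          rw [e1]
          refine (norm_sub_le _ _).trans ?_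
          have := norm_add_le (al' x) (al' y - al' x)
          linarith)
      have heq : EqOn al' g (ball z r) := by
        intro y hy
        exact tendsto_nhds_unique (hu.tendsto_at (hrV hy)) (hg2.tendsto_at hy)
      exact Vale.Agent.P097.Hol.analyticOnNhd_of_differentiableOn isOpen_ball
        (hg.congr heq)
    exact ((h1 z (mem_ball_self hr)).differentiableAt).differentiableWithinAt
  -- the limit of the sine
  set S : ℂ × ℂ → ℂ := fun z => Complex.sin (al' z - F (θ z)) with hS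
  have hSd : DifferentiableOn ℂ S GB :=
    ((hdal.mono hGW).sub (h.dF.comp dθ fun z hz => hθ z hz)).csin
  have hSa : AnalyticOnNhd ℂ S GB :=
    Vale.Agent.P097.Hol.analyticOnNhd_of_differentiableOn isOpen_GB hSd
  have hSlim : ∀ z ∈ GB, Tendsto (fun n => Complex.sin (al n z - F (th n z))) (U : Filter ι)
      (𝓝 (S z)) := by
    intro z hz
    have t1 : Tendsto (fun n => al n z - 2 * Real.pi * N' n) (U : Filter ι) (𝓝 (al' z)) :=
      hal.tendsto_at (hGW hz)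
    have t2 : Tendsto (fun n => th n z - (N n : ℂ)) (U : Filter ι) (𝓝 (θ z)) :=
      hlim.tendsto_at hz
    have t3 : Tendsto (fun n => F (th n z - (N n : ℂ))) (U : Filter ι) (𝓝 (F (θ z))) :=
      (h.dF.continuousOn.continuousAt ((isOpen_Sb b).mem_nhds (hθ z hz))).tendsto.comp t2
    have t4 := (Complex.continuous_sin.tendsto (al' z - F (θ z))).comp (t1.sub t3)
    refine t4.congr' ?_
    obtain ⟨V, hV, hn⟩ := P.pos z hz
    filter_upwards [hn] with n hn
    have h2 := (hn.2 z (mem_of_mem_nhds hV)).1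
    have h3 := F_add_int hF h2 (-N n)
    have h4 : th n z - (N n : ℂ) = th n z + ((-N n : ℤ) : ℂ) := by push_cast; ring
    simp only [Function.comp]
    rw [h4, h3]
    have h5 : al n z - 2 * Real.pi * N' n - (F (th n z) + ((-N n : ℤ) : ℂ) * (2 * Real.pi)) =
        al n z - F (th n z) + ((N n - N' n : ℤ) : ℂ) * (2 * Real.pi) := by push_cast; ring
    rw [h5, Complex.sin_add_int_mul_two_pi]
  have hS1 : S z₁ ≠ 0 := by
    have h1 := (hSlim z₁ hz₁).norm
    have h2 : c ≤ ‖S z₁‖ := ge_of_tendsto h1 hnt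
    intro h0
    rw [h0, norm_zero] at h2
    linarith
  -- a good slice
  have hslice : ∃ w₀ : ℂ, 0 < w₀.im ∧ |w₀.re| ≤ w₀.im / 2 ∧ ∃ κ ∈ Low, S (κ, w₀) ≠ 0 := by
    by_contra hcon
    push Not at hcon
    have hmem : ((-I, I) : ℂ × ℂ) ∈ GB := by
      constructor
      · show (-I).im < 0
        simp
      · show 0 < I.im
        simp
    have hev : S =ᶠ[𝓝 ((-I, I) : ℂ × ℂ)] 0 := by
      have c1 : ∀ᶠ z : ℂ × ℂ in 𝓝 ((-I, I) : ℂ × ℂ), z.1.im < 0 := by
        have : ContinuousAt (fun z : ℂ × ℂ => z.1.im) ((-I, I) : ℂ × ℂ) := by fun_prop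
        exact this.eventually_lt_const (by simp)
      have c2 : ∀ᶠ z : ℂ × ℂ in 𝓝 ((-I, I) : ℂ × ℂ), 1 / 2 < z.2.im := by
        have : ContinuousAt (fun z : ℂ × ℂ => z.2.im) ((-I, I) : ℂ × ℂ) := by fun_prop
        exact this.eventually_const_lt (by simp; norm_num)
      have c3 : ∀ᶠ z : ℂ × ℂ in 𝓝 ((-I, I) : ℂ × ℂ), |z.2.re| < 1 / 4 := by
        have : ContinuousAt (fun z : ℂ × ℂ => |z.2.re|) ((-I, I) : ℂ × ℂ) := by fun_prop
        exact this.eventually_lt_const (by simp)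
      filter_upwards [c1, c2, c3] with z k1 k2 k3
      exact hcon z.2 (by linarith) (by linarith) z.1 k1
    exact hS1 (hSa.eqOn_zero_of_preconnected_of_eventuallyEq_zero convex_GB.isPreconnected hmem
      hev hz₁)
  obtain ⟨w₀, hw, hw', κ, hκ, hSκ⟩ := hslice
  have hmemG : ((κ, w₀) : ℂ × ℂ) ∈ GB := ⟨hκ, hw⟩
  -- the root in the limit
  have hroot : Mi F q (al' (κ, w₀)) (p' (κ, w₀)) (θ (κ, w₀)) = 0 := by
    have t1 : Tendsto (fun n => al n (κ, w₀) - 2 * Real.pi * N' n) (U : Filter ι)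
        (𝓝 (al' (κ, w₀))) := hal.tendsto_at (hGW hmemG)
    have t2 : Tendsto (fun n => th n (κ, w₀) - (N n : ℂ)) (U : Filter ι) (𝓝 (θ (κ, w₀))) :=
      hlim.tendsto_at hmemG
    have t3 : Tendsto (fun n => p n (κ, w₀)) (U : Filter ι) (𝓝 (p' (κ, w₀))) :=
      hp.tendsto_at (hGW hmemG)
    have t4 : Tendsto (fun n => (al n (κ, w₀) - 2 * Real.pi * N' n, p n (κ, w₀),
        th n (κ, w₀) - (N n : ℂ))) (U : Filter ι)
        (𝓝 (al' (κ, w₀), p' (κ, w₀), θ (κ, w₀))) := t1.prodMk_nhds (t3.prodMk_nhds t2)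
    have t5 := (Mi_contAt h (hθ _ hmemG)).tendsto.comp t4
    refine tendsto_nhds_unique t5 (tendsto_const_nhds.congr' ?_)
    obtain ⟨V, hV, hn⟩ := P.pos (κ, w₀) hmemG
    filter_upwards [hn] with n hn
    obtain ⟨h2, h3⟩ := hn.2 (κ, w₀) (mem_of_mem_nhds hV)
    have h4 := Mi_add_int hF hq (al n (κ, w₀)) (p n (κ, w₀)) h2 (-N n)
    rw [h3] at h4
    have e1 : th n (κ, w₀) - (N n : ℂ) = th n (κ, w₀) + ((-N n : ℤ) : ℂ) := by push_cast; ring
    have e2 : ∀ x : ℂ, Mi F q (al n (κ, w₀) - 2 * Real.pi * N' n) (p n (κ, w₀)) x =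
        Mi F q (al n (κ, w₀)) (p n (κ, w₀)) x := by
      intro x
      have e3 : al n (κ, w₀) - 2 * Real.pi * N' n - F x =
          al n (κ, w₀) - F x + ((-N' n : ℤ) : ℂ) * (2 * Real.pi) := by push_cast; ring
      rw [Mi, Mi, e3, Complex.cos_add_int_mul_two_pi, Complex.sin_add_int_mul_two_pi]
    simp only [Function.comp]
    rw [e2, e1, h4]
  refine no_line h hF hq (fun R => P.toPos hF hq hlim hθ hw hw' R) (N := N') (al' := al')
    (p' := p') ?_ ⟨κ, hκ, ?_⟩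
  · intro κ' hκ'
    have hm : ((κ', w₀) : ℂ × ℂ) ∈ WB d := ⟨hw, lt_of_le_of_lt hκ' (mul_pos hd hw)⟩
    obtain ⟨V, hV, -, h1, h2, h3⟩ := hnear _ hm
    exact ⟨V, hV, h1, h2, h3⟩
  · intro hzero
    have h1 := Mi_deriv_root h (hθ _ hmemG) hroot
    rw [hzero, mul_zero, eq_comm, mul_eq_zero] at h1
    exact h1.elim (Cv.L3 h) hSκ

/-- **PAI, isotropic lines**, `e ^ (2 i al) → 0` -/
theorem pai_I (h : Cv Λ b F q) (hF : ∀ x ∈ Sb b, F (x + 1) = F x + 2 * Real.pi)
    (hq : ∀ x ∈ Sb b, q (x + 1) = q x) (P : PD (U : Filter ι) b F q al p th) {d : ℝ} (hd : 0 < d)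
    {B' : ℂ × ℂ → ℂ}
    (hdf : ∀ z ∈ WB d, ∃ V ∈ 𝓝 z, ∀ᶠ n in (U : Filter ι), DifferentiableOn ℂ (al n) V ∧
      DifferentiableOn ℂ (p n) V)
    (hal : TendstoLocallyUniformlyOn (fun n z => Complex.exp (2 * I * al n z)) (fun _ => 0)
      (U : Filter ι) (WB d))
    (hp : TendstoLocallyUniformlyOn (fun n z => 2 * p n z * Complex.exp (I * al n z)) B'
      (U : Filter ι) (WB d)) : False := by
  obtain ⟨N, θ, dθ, hlim, hθ⟩ := P.lim h
  have hw : 0 < (I : ℂ).im := by simp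
  have hw' : |(I : ℂ).re| ≤ (I : ℂ).im / 2 := by simp
  refine no_iso h hF hq (fun R => P.toPos hF hq hlim hθ hw hw' R) (B' := B') ?_
  intro κ hκ
  have hm : ((κ, I) : ℂ × ℂ) ∈ WB d := ⟨hw, lt_of_le_of_lt hκ (mul_pos hd hw)⟩
  obtain ⟨V, hV, hVd⟩ := hdf _ hm
  obtain ⟨r₁, hr₁, h1⟩ := tlu_near (isOpen_WB d) hal hm
  obtain ⟨r₂, hr₂, h2⟩ := tlu_near (isOpen_WB d) hp hm
  obtain ⟨r₃, hr₃, h3⟩ := Metric.mem_nhds_iff.1 hV
  set r := min r₁ (min r₂ r₃) with hr
  have hr0 : 0 < r := by positivity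
  have e1 : r ≤ r₁ := min_le_left _ _
  have e2 : r ≤ r₂ := (min_le_right _ _).trans (min_le_left _ _)
  have e3 : r ≤ r₃ := (min_le_right _ _).trans (min_le_right _ _)
  refine ⟨ball _ r, ball_mem_nhds _ hr0, ?_, (h1 r e1).2, (h2 r e2).2⟩
  exact hVd.mono fun n hn => ⟨hn.1.mono ((ball_subset_ball e3).trans h3),
    hn.2.mono ((ball_subset_ball e3).trans h3)⟩

/-- **PAI, isotropic lines**, `e ^ (-2 i al) → 0` -/
theorem pai_I' (h : Cv Λ b F q) (hF : ∀ x ∈ Sb b, F (x + 1) = F x + 2 * Real.pi)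
    (hq : ∀ x ∈ Sb b, q (x + 1) = q x) (P : PD (U : Filter ι) b F q al p th) {d : ℝ} (hd : 0 < d)
    {B' : ℂ × ℂ → ℂ}
    (hdf : ∀ z ∈ WB d, ∃ V ∈ 𝓝 z, ∀ᶠ n in (U : Filter ι), DifferentiableOn ℂ (al n) V ∧
      DifferentiableOn ℂ (p n) V)
    (hal : TendstoLocallyUniformlyOn (fun n z => Complex.exp (-(2 * I * al n z))) (fun _ => 0)
      (U : Filter ι) (WB d))
    (hp : TendstoLocallyUniformlyOn (fun n z => 2 * p n z * Complex.exp (-I * al n z)) B'
      (U : Filter ι) (WB d)) : False := by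
  obtain ⟨N, θ, dθ, hlim, hθ⟩ := P.lim h
  have hw : 0 < (I : ℂ).im := by simp
  have hw' : |(I : ℂ).re| ≤ (I : ℂ).im / 2 := by simp
  refine no_iso' h hF hq (fun R => P.toPos hF hq hlim hθ hw hw' R) (B' := B') ?_
  intro κ hκ
  have hm : ((κ, I) : ℂ × ℂ) ∈ WB d := ⟨hw, lt_of_le_of_lt hκ (mul_pos hd hw)⟩
  obtain ⟨V, hV, hVd⟩ := hdf _ hm
  obtain ⟨r₁, hr₁, h1⟩ := tlu_near (isOpen_WB d) hal hm
  obtain ⟨r₂, hr₂, h2⟩ := tlu_near (isOpen_WB d) hp hm
  obtain ⟨r₃, hr₃, h3⟩ := Metric.mem_nhds_iff.1 hV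
  set r := min r₁ (min r₂ r₃) with hr
  have hr0 : 0 < r := by positivity
  have e1 : r ≤ r₁ := min_le_left _ _
  have e2 : r ≤ r₂ := (min_le_right _ _).trans (min_le_left _ _)
  have e3 : r ≤ r₃ := (min_le_right _ _).trans (min_le_right _ _)
  refine ⟨ball _ r, ball_mem_nhds _ hr0, ?_, (h1 r e1).2, (h2 r e2).2⟩
  exact hVd.mono fun n hn => ⟨hn.1.mono ((ball_subset_ball e3).trans h3),
    hn.2.mono ((ball_subset_ball e3).trans h3)⟩

end

end Vale.Agent.P097.H920
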