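import Vale.Agent.P097.H920.Proj

/-!
# P097 / case [c] / row A5.CONS (helper920), part 2

The limit world theorem in the language of `TC.Mi`: `no_Mi` (multipliers `lam n`), and the cases
`no_line` (honest limit line), `no_iso`, `no_iso'` (isotropic limit line), `no_inf` (limit line at
infinity).
-/

set_option linter.all false

open Complex Metric Filter Topology Set
open scoped ComplexConjugate

namespace Vale.Agent.P097.H920

open Vale.Agent.P097.TC
open Vale.Agent.P097.H190.EN (Dom Low isOpen_dom)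

variable {Λ b : ℝ} {F q : ℂ → ℂ}

/-- a good extension of the position to a ball about a real point -/
def ExtM (b : ℝ) (F q : ℂ → ℂ) (al p th : ℂ × ℂ → ℂ) (w₀ : ℂ) (c δ ε : ℝ) : Prop :=
  ∃ g : ℂ × ℂ → ℂ, AnalyticOnNhd ℂ g (ball ((c : ℂ), w₀) δ) ∧
    ∀ z ∈ ball ((c : ℂ), w₀) δ, g z ∈ Sb b ∧ Mi F q (al z) (p z) (g z) = 0 ∧
      deriv (Mi F q (al z) (p z)) (g z) ≠ 0 ∧ (z.1.im ≤ -ε → g z = th z)

theorem Pr_Mi_fun (F q : ℂ → ℂ) (l a p : ℂ) :
    Pr F q (l * Complex.cos a) (l * Complex.sin a) (l * p) = fun x => l * Mi F q a p x :=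
  funext fun x => Pr_Mi F q l a p x

theorem Pr_Mi_zero {l a p x : ℂ} (hl : l ≠ 0) :
    Pr F q (l * Complex.cos a) (l * Complex.sin a) (l * p) x = 0 ↔ Mi F q a p x = 0 := by
  rw [Pr_Mi]
  simp [hl]

theorem Pr_Mi_deriv (F q : ℂ → ℂ) (l a p x : ℂ) :
    deriv (Pr F q (l * Complex.cos a) (l * Complex.sin a) (l * p)) x =
      l * deriv (Mi F q a p) x := by
  rw [Pr_Mi_fun]
  exact deriv_const_mul_field l

theorem ExtP.toM {al p th lam : ℂ × ℂ → ℂ} (hlam : ∀ z, lam z ≠ 0) {w₀ : ℂ} {c δ ε : ℝ}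
    (h : ExtP b F q (fun z => lam z * Complex.cos (al z)) (fun z => lam z * Complex.sin (al z))
      (fun z => lam z * p z) th w₀ c δ ε) : ExtM b F q al p th w₀ c δ ε := by
  obtain ⟨g, hg, hg'⟩ := h
  refine ⟨g, hg, fun z hz => ?_⟩
  obtain ⟨h1, h2, h3, h4⟩ := hg' z hz
  refine ⟨h1, (Pr_Mi_zero (hlam z)).1 h2, ?_, h4⟩
  rw [Pr_Mi_deriv] at h3
  exact right_ne_zero_of_mul h3

/-- the part of the data about the position -/
structure Pos {ι : Type*} (l : Filter ι) (b R : ℝ) (F q : ℂ → ℂ) (w₀ : ℂ) (ρw : ℝ) (al p th : ι → ℂ × ℂ → ℂ)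
    (θ : ℂ × ℂ → ℂ) : Prop where
  ρ0 : 0 < ρw
  lim : TendstoLocallyUniformlyOn th θ l (Dom w₀ ρw)
  reg : ∀ z ∈ Dom w₀ ρw, ∃ V ∈ 𝓝 z, ∀ᶠ n in l, DifferentiableOn ℂ (th n) V ∧
    ∀ z' ∈ V, th n z' ∈ Sb b ∧ Mi F q (al n z') (p n z') (th n z') = 0
  str : ∀ z ∈ Dom w₀ ρw, θ z ∈ Sb b
  touch : ∀ c : ℝ, |c| < R → ∀ δ > 0, ∃ ε > 0, ∃ᶠ n in l,
    ¬ ExtM b F q (al n) (p n) (th n) w₀ c δ ε

section

variable {ι : Type*} {l : Filter ι} [l.NeBot] {R : ℝ} {w₀ : ℂ} {ρw : ℝ}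
  {al p th : ι → ℂ × ℂ → ℂ} {θ : ℂ × ℂ → ℂ}

/-- the position data together with convergent homogeneous coordinates of the line -/
theorem Pos.pw (P : Pos l b R F q w₀ ρw al p th θ) {lam : ι → ℂ × ℂ → ℂ}
    (hlam : ∀ n z, lam n z ≠ 0) {A B C : ℂ × ℂ → ℂ}
    (hom : ∀ κ : ℂ, (κ.im < 0 ∨ (κ.im = 0 ∧ |κ.re| < R)) → ∃ V ∈ 𝓝 (κ, w₀),
      (∀ᶠ n in l, DifferentiableOn ℂ (fun z => lam n z * Complex.cos (al n z)) V ∧
        DifferentiableOn ℂ (fun z => lam n z * Complex.sin (al n z)) V ∧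
        DifferentiableOn ℂ (fun z => lam n z * p n z) V) ∧
      TendstoUniformlyOn (fun n z => lam n z * Complex.cos (al n z)) A l V ∧
      TendstoUniformlyOn (fun n z => lam n z * Complex.sin (al n z)) B l V ∧
      TendstoUniformlyOn (fun n z => lam n z * p n z) C l V)
    (ne : ∀ κ : ℂ, (κ.im < 0 ∨ (κ.im = 0 ∧ |κ.re| < R)) →
      ¬ (A (κ, w₀) = 0 ∧ B (κ, w₀) = 0 ∧ C (κ, w₀) = 0)) :
    PW l b R F q w₀ ρw (fun n z => lam n z * Complex.cos (al n z))
      (fun n z => lam n z * Complex.sin (al n z)) (fun n z => lam n z * p n z) A B C th θ where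
  ρ0 := P.ρ0
  hom := hom
  ne := ne
  lim := P.lim
  reg := by
    intro z hz
    obtain ⟨V, hV, hn⟩ := P.reg z hz
    refine ⟨V, hV, hn.mono fun n h1 => ⟨h1.1, fun z' hz' => ⟨(h1.2 z' hz').1, ?_⟩⟩⟩
    exact (Pr_Mi_zero (hlam n z')).2 (h1.2 z' hz').2
  str := P.str
  touch := by
    intro c hc δ hδ
    obtain ⟨ε, hε, hfr⟩ := P.touch c hc δ hδ
    exact ⟨ε, hε, hfr.mono fun n hn hcon => hn (hcon.toM (hlam n))⟩

/-- **The limit world does not exist**, homogeneous coordinates -/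
theorem no_Mi (h : Cv Λ b F q) (hF : ∀ x ∈ Sb b, F (x + 1) = F x + 2 * Real.pi)
    (hq : ∀ x ∈ Sb b, q (x + 1) = q x) (P : ∀ R : ℝ, Pos l b R F q w₀ ρw al p th θ)
    {lam : ι → ℂ × ℂ → ℂ} (hlam : ∀ n z, lam n z ≠ 0) {A B C : ℂ × ℂ → ℂ}
    (hom : ∀ κ : ℂ, κ.im ≤ 0 → ∃ V ∈ 𝓝 (κ, w₀),
      (∀ᶠ n in l, DifferentiableOn ℂ (fun z => lam n z * Complex.cos (al n z)) V ∧
        DifferentiableOn ℂ (fun z => lam n z * Complex.sin (al n z)) V ∧
        DifferentiableOn ℂ (fun z => lam n z * p n z) V) ∧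
      TendstoUniformlyOn (fun n z => lam n z * Complex.cos (al n z)) A l V ∧
      TendstoUniformlyOn (fun n z => lam n z * Complex.sin (al n z)) B l V ∧
      TendstoUniformlyOn (fun n z => lam n z * p n z) C l V)
    (ne : ∀ κ : ℂ, κ.im ≤ 0 → ¬ (A (κ, w₀) = 0 ∧ B (κ, w₀) = 0 ∧ C (κ, w₀) = 0))
    (nt : ∃ κ ∈ Low, A (κ, w₀) ^ 2 + B (κ, w₀) ^ 2 = 0 ∨
      deriv (Pr F q (A (κ, w₀)) (B (κ, w₀)) (C (κ, w₀))) (θ (κ, w₀)) ≠ 0) : False := by
  refine no_proj (b := b) (w₀ := w₀) (ρw := ρw) (θ := θ) (th := th) h hF hq (fun R =>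
    (P R).pw hlam (A := A) (B := B) (C := C) (fun κ hκ => hom κ ?_) (fun κ hκ => ne κ ?_)) nt
  · rcases hκ with h1 | h1
    · exact h1.le
    · exact h1.1.le
  · rcases hκ with h1 | h1
    · exact h1.le
    · exact h1.1.le

/-- **honest limit line** (the angle modulo `2 π`), not tangent at one point -/
theorem no_line (h : Cv Λ b F q) (hF : ∀ x ∈ Sb b, F (x + 1) = F x + 2 * Real.pi)
    (hq : ∀ x ∈ Sb b, q (x + 1) = q x) (P : ∀ R : ℝ, Pos l b R F q w₀ ρw al p th θ)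
    {N : ι → ℤ} {al' p' : ℂ × ℂ → ℂ}
    (hom : ∀ κ : ℂ, κ.im ≤ 0 → ∃ V ∈ 𝓝 (κ, w₀),
      (∀ᶠ n in l, DifferentiableOn ℂ (al n) V ∧ DifferentiableOn ℂ (p n) V) ∧
      TendstoUniformlyOn (fun n z => al n z - 2 * Real.pi * N n) al' l V ∧
      TendstoUniformlyOn p p' l V)
    (nt : ∃ κ ∈ Low, deriv (Mi F q (al' (κ, w₀)) (p' (κ, w₀))) (θ (κ, w₀)) ≠ 0) : False := by
  refine no_Mi (ρw := ρw) h hF hq P (lam := fun _ _ => 1) (fun _ _ => one_ne_zero)
    (A := fun z => Complex.cos (al' z)) (B := fun z => Complex.sin (al' z)) (C := p') ?_ ?_ ?_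
  · intro κ hκ
    obtain ⟨V, hV, hd, ual, up⟩ := hom κ hκ
    have hcal : ContinuousAt al' (κ, w₀) := by
      have : ContinuousOn al' V := ual.continuousOn
        (hd.mono fun n hn => (hn.1.sub_const _).continuousOn).frequently
      exact this.continuousAt hV
    obtain ⟨N1, hN1, hN1V, -, -, hU1⟩ := near_comp hV ual hcal isOpen_univ (mem_univ _)
      Complex.continuous_cos.continuousOn
    obtain ⟨N2, hN2, hN2V, -, -, hU2⟩ := near_comp hV ual hcal isOpen_univ (mem_univ _)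
      Complex.continuous_sin.continuousOn
    refine ⟨N1 ∩ N2, inter_mem hN1 hN2, ?_, ?_, ?_, ?_⟩
    · filter_upwards [hd] with n hn
      have m1 : N1 ∩ N2 ⊆ V := inter_subset_left.trans hN1V
      simp only [one_mul]
      exact ⟨(hn.1.mono m1).ccos, (hn.1.mono m1).csin, hn.2.mono m1⟩
    · refine (hU1.mono inter_subset_left).congr (Eventually.of_forall fun n z hz => ?_)
      simp only [one_mul]
      have e1 : al n z = al n z - 2 * Real.pi * N n + N n * (2 * Real.pi) := by ring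
      conv_rhs => rw [e1]
      rw [Complex.cos_add_int_mul_two_pi]
    · refine (hU2.mono inter_subset_right).congr (Eventually.of_forall fun n z hz => ?_)
      simp only [one_mul]
      have e1 : al n z = al n z - 2 * Real.pi * N n + N n * (2 * Real.pi) := by ring
      conv_rhs => rw [e1]
      rw [Complex.sin_add_int_mul_two_pi]
    · simpa using up.mono (inter_subset_left.trans hN1V)
  · rintro κ hκ ⟨h1, h2, -⟩
    have := Complex.sin_sq_add_cos_sq (al' (κ, w₀))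
    rw [h1, h2] at this
    norm_num at this
  · obtain ⟨κ, hκ, hne⟩ := nt
    refine ⟨κ, hκ, Or.inr ?_⟩
    have h1 : Pr F q (Complex.cos (al' (κ, w₀))) (Complex.sin (al' (κ, w₀))) (p' (κ, w₀)) =
        Mi F q (al' (κ, w₀)) (p' (κ, w₀)) := funext fun x => Pr_Mi1 F q _ _ x
    simp only [h1]
    exact hne

/-- **isotropic limit line**, `e ^ (2 i al) → 0` -/
theorem no_iso (h : Cv Λ b F q) (hF : ∀ x ∈ Sb b, F (x + 1) = F x + 2 * Real.pi)
    (hq : ∀ x ∈ Sb b, q (x + 1) = q x) (P : ∀ R : ℝ, Pos l b R F q w₀ ρw al p th θ)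
    {B' : ℂ × ℂ → ℂ}
    (hom : ∀ κ : ℂ, κ.im ≤ 0 → ∃ V ∈ 𝓝 (κ, w₀),
      (∀ᶠ n in l, DifferentiableOn ℂ (al n) V ∧ DifferentiableOn ℂ (p n) V) ∧
      TendstoUniformlyOn (fun n z => Complex.exp (2 * I * al n z)) (fun _ => 0) l V ∧
      TendstoUniformlyOn (fun n z => 2 * p n z * Complex.exp (I * al n z)) B' l V) :
    False := by
  have ec : ∀ a : ℂ, 2 * Complex.exp (I * a) * Complex.cos a = 1 + Complex.exp (2 * I * a) := by
    intro a
    have h1 : Complex.exp (I * a) * Complex.exp (a * I) = Complex.exp (2 * I * a) := by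
      rw [← Complex.exp_add]; ring_nf
    have h2 : Complex.exp (I * a) * Complex.exp (-a * I) = 1 := by
      rw [← Complex.exp_add]; ring_nf; exact Complex.exp_zero
    rw [Complex.cos]
    linear_combination h1 + h2
  have es : ∀ a : ℂ, 2 * Complex.exp (I * a) * Complex.sin a =
      I - I * Complex.exp (2 * I * a) := by
    intro a
    have h1 : Complex.exp (I * a) * Complex.exp (a * I) = Complex.exp (2 * I * a) := by
      rw [← Complex.exp_add]; ring_nf
    have h2 : Complex.exp (I * a) * Complex.exp (-a * I) = 1 := by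
      rw [← Complex.exp_add]; ring_nf; exact Complex.exp_zero
    rw [Complex.sin]
    linear_combination I * h2 - I * h1
  refine no_Mi (ρw := ρw) h hF hq P (lam := fun n z => 2 * Complex.exp (I * al n z))
    (fun n z => mul_ne_zero two_ne_zero (Complex.exp_ne_zero _))
    (A := fun _ => 1) (B := fun _ => I) (C := B') ?_ ?_ ?_
  · intro κ hκ
    obtain ⟨V, hV, hd, u1, u2⟩ := hom κ hκ
    refine ⟨V, hV, ?_, ?_, ?_, ?_⟩
    · filter_upwards [hd] with n hn
      have hl := ((hn.1.const_mul I).cexp).const_mul 2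
      exact ⟨hl.mul hn.1.ccos, hl.mul hn.1.csin, hl.mul hn.2⟩
    · rw [Metric.tendstoUniformlyOn_iff] at u1 ⊢
      intro ε hε
      filter_upwards [u1 ε hε] with n hn z hz
      have h1 := hn z hz
      rw [dist_comm, dist_eq_norm, sub_zero] at h1
      rw [ec, dist_comm, dist_eq_norm]
      simpa using h1
    · rw [Metric.tendstoUniformlyOn_iff] at u1 ⊢
      intro ε hε
      filter_upwards [u1 ε hε] with n hn z hz
      have h1 := hn z hz
      rw [dist_comm, dist_eq_norm, sub_zero] at h1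
      rw [es, dist_eq_norm]
      simpa using h1
    · refine u2.congr (Eventually.of_forall fun n z hz => ?_)
      simp only
      ring
  · rintro κ hκ ⟨h1, -⟩
    exact one_ne_zero h1
  · refine ⟨-I, ?_, Or.inl ?_⟩
    · show (-I).im < 0
      simp
    · simp

/-- **isotropic limit line**, `e ^ (-2 i al) → 0` -/
theorem no_iso' (h : Cv Λ b F q) (hF : ∀ x ∈ Sb b, F (x + 1) = F x + 2 * Real.pi)
    (hq : ∀ x ∈ Sb b, q (x + 1) = q x) (P : ∀ R : ℝ, Pos l b R F q w₀ ρw al p th θ)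
    {B' : ℂ × ℂ → ℂ}
    (hom : ∀ κ : ℂ, κ.im ≤ 0 → ∃ V ∈ 𝓝 (κ, w₀),
      (∀ᶠ n in l, DifferentiableOn ℂ (al n) V ∧ DifferentiableOn ℂ (p n) V) ∧
      TendstoUniformlyOn (fun n z => Complex.exp (-(2 * I * al n z))) (fun _ => 0) l V ∧
      TendstoUniformlyOn (fun n z => 2 * p n z * Complex.exp (-I * al n z)) B' l V) :
    False := by
  have ec : ∀ a : ℂ, 2 * Complex.exp (-I * a) * Complex.cos a =
      1 + Complex.exp (-(2 * I * a)) := by
    intro a
    have h1 : Complex.exp (-I * a) * Complex.exp (-a * I) = Complex.exp (-(2 * I * a)) := by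
      rw [← Complex.exp_add]; ring_nf
    have h2 : Complex.exp (-I * a) * Complex.exp (a * I) = 1 := by
      rw [← Complex.exp_add]; ring_nf; exact Complex.exp_zero
    rw [Complex.cos]
    linear_combination h1 + h2
  have es : ∀ a : ℂ, 2 * Complex.exp (-I * a) * Complex.sin a =
      -I + I * Complex.exp (-(2 * I * a)) := by
    intro a
    have h1 : Complex.exp (-I * a) * Complex.exp (-a * I) = Complex.exp (-(2 * I * a)) := by
      rw [← Complex.exp_add]; ring_nf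
    have h2 : Complex.exp (-I * a) * Complex.exp (a * I) = 1 := by
      rw [← Complex.exp_add]; ring_nf; exact Complex.exp_zero
    rw [Complex.sin]
    linear_combination I * h1 - I * h2
  refine no_Mi (ρw := ρw) h hF hq P (lam := fun n z => 2 * Complex.exp (-I * al n z))
    (fun n z => mul_ne_zero two_ne_zero (Complex.exp_ne_zero _))
    (A := fun _ => 1) (B := fun _ => -I) (C := B') ?_ ?_ ?_
  · intro κ hκ
    obtain ⟨V, hV, hd, u1, u2⟩ := hom κ hκ
    refine ⟨V, hV, ?_, ?_, ?_, ?_⟩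
    · filter_upwards [hd] with n hn
      have hl := ((hn.1.const_mul (-I)).cexp).const_mul 2
      exact ⟨hl.mul hn.1.ccos, hl.mul hn.1.csin, hl.mul hn.2⟩
    · rw [Metric.tendstoUniformlyOn_iff] at u1 ⊢
      intro ε hε
      filter_upwards [u1 ε hε] with n hn z hz
      have h1 := hn z hz
      rw [dist_comm, dist_eq_norm, sub_zero] at h1
      rw [ec, dist_comm, dist_eq_norm]
      simpa using h1
    · rw [Metric.tendstoUniformlyOn_iff] at u1 ⊢
      intro ε hε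
      filter_upwards [u1 ε hε] with n hn z hz
      have h1 := hn z hz
      rw [dist_comm, dist_eq_norm, sub_zero] at h1
      rw [es, dist_comm, dist_eq_norm]
      simpa using h1
    · refine u2.congr (Eventually.of_forall fun n z hz => ?_)
      simp only
      ring
  · rintro κ hκ ⟨h1, -⟩
    exact one_ne_zero h1
  · refine ⟨-I, ?_, Or.inl ?_⟩
    · show (-I).im < 0
      simp
    · simp

/-- **limit line at infinity**, `cos al / p → 0`, `sin al / p → 0` -/
theorem no_inf (h : Cv Λ b F q) (hF : ∀ x ∈ Sb b, F (x + 1) = F x + 2 * Real.pi)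
    (hq : ∀ x ∈ Sb b, q (x + 1) = q x) (P : ∀ R : ℝ, Pos l b R F q w₀ ρw al p th θ)
    (hp : ∀ n z, p n z ≠ 0)
    (hom : ∀ κ : ℂ, κ.im ≤ 0 → ∃ V ∈ 𝓝 (κ, w₀),
      (∀ᶠ n in l, DifferentiableOn ℂ (al n) V ∧ DifferentiableOn ℂ (p n) V) ∧
      TendstoUniformlyOn (fun n z => (p n z)⁻¹ * Complex.cos (al n z)) (fun _ => 0) l V ∧
      TendstoUniformlyOn (fun n z => (p n z)⁻¹ * Complex.sin (al n z)) (fun _ => 0) l V) :
    False := by
  refine no_Mi (ρw := ρw) h hF hq P (lam := fun n z => (p n z)⁻¹)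
    (fun n z => inv_ne_zero (hp n z))
    (A := fun _ => 0) (B := fun _ => 0) (C := fun _ => 1) ?_ ?_ ?_
  · intro κ hκ
    obtain ⟨V, hV, hd, u1, u2⟩ := hom κ hκ
    refine ⟨V, hV, ?_, u1, u2, ?_⟩
    · filter_upwards [hd] with n hn
      have hl : DifferentiableOn ℂ (fun z => (p n z)⁻¹) V := hn.2.inv fun z _ => hp n z
      exact ⟨hl.mul hn.1.ccos, hl.mul hn.1.csin, hl.mul hn.2⟩
    · rw [Metric.tendstoUniformlyOn_iff]
      intro ε hε
      refine Eventually.of_forall fun n z hz => ?_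
      rw [inv_mul_cancel₀ (hp n z), dist_self]
      exact hε
  · rintro κ hκ ⟨-, -, h1⟩
    exact one_ne_zero h1
  · refine ⟨-I, ?_, Or.inl ?_⟩
    · show (-I).im < 0
      simp
    · simp

end

end Vale.Agent.P097.H920
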