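import Vale.Agent.P097.TC.Defs5
import Vale.Agent.P097.H920.Pai
import Vale.Agent.P097.H190.WBr

/-!
# P097 / case [c] / block (AI) (helper920): domain facts from `W5`, Defs5 v3

`Cn M` = native cone around the real label in the straight coordinates; `Om M = Nr ∪ Cn M`.
`ev_wk`, `ev_wj`, `ev_cn`, `ev_ne`: compacts are in the domains; `near_om`: near every point of
`Om M` the actual points are in the domain of the position. `pd_of`: the data `PD` of block (AI).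
-/

set_option linter.all false

open Complex Metric Filter Topology Set MeasureTheory
open scoped ComplexConjugate ENNReal

namespace Vale.Agent.P097.A5

open Vale.Agent.P097.TC Vale.Agent.P097.H85 Vale.Agent.P097.H929 Vale.Agent.P097.H920
open Vale.Agent.P097.H190.Ult Vale.Agent.P097.H190.WO

/-- the native cone in the straight coordinates -/
def Cn (M : ℝ) : Set (ℂ × ℂ) := {p | p.1.im < -(M * ‖p.2‖)}

theorem isOpen_Cn (M : ℝ) : IsOpen (Cn M) :=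
  isOpen_lt (continuous_im.comp continuous_fst)
    (continuous_const.mul continuous_snd.norm).neg

theorem convex_Cn {M : ℝ} (hM : 0 ≤ M) : Convex ℝ (Cn M) := by
  intro x hx y hy a c ha hc hac
  have hx' : x.1.im < -(M * ‖x.2‖) := hx
  have hy' : y.1.im < -(M * ‖y.2‖) := hy
  have e1 : (a • x + c • y).1.im = a * x.1.im + c * y.1.im := by simp
  have e2 : ‖(a • x + c • y).2‖ ≤ a * ‖x.2‖ + c * ‖y.2‖ := by
    have : (a • x + c • y).2 = a • x.2 + c • y.2 := rfl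
    rw [this]
    refine (norm_add_le _ _).trans ?_
    rw [norm_smul, norm_smul, Real.norm_of_nonneg ha, Real.norm_of_nonneg hc]
  show (a • x + c • y).1.im < -(M * ‖(a • x + c • y).2‖)
  rw [e1]
  have e3 : M * ‖(a • x + c • y).2‖ ≤ M * (a * ‖x.2‖ + c * ‖y.2‖) :=
    mul_le_mul_of_nonneg_left e2 hM
  rcases ha.eq_or_lt with h | h
  · have h1 : c = 1 := by linarith
    subst h1
    rw [← h] at e3 ⊢
    linarith
  · have h1 := mul_lt_mul_of_pos_left hx' h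
    have h2 := mul_le_mul_of_nonneg_left hy'.le hc
    linarith

/-- both domains of the position together -/
def Om (M : ℝ) : Set (ℂ × ℂ) := Nr ∪ Cn M

theorem isOpen_Nr : IsOpen Nr := isOpen_GB

theorem isOpen_Om (M : ℝ) : IsOpen (Om M) := isOpen_Nr.union (isOpen_Cn M)

theorem precon_Om {M : ℝ} (hM : 0 ≤ M) : IsPreconnected (Om M) := by
  have hN : IsPreconnected Nr := convex_GB.isPreconnected
  refine IsPreconnected.union ((-((M + 1 : ℝ) : ℂ) * I, I) : ℂ × ℂ) ?_ ?_ hN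
    (convex_Cn hM).isPreconnected
  · constructor
    · show (-((M + 1 : ℝ) : ℂ) * I).im < 0
      simp; linarith
    · show 0 < I.im
      simp
  · show (-((M + 1 : ℝ) : ℂ) * I).im < -(M * ‖(I : ℂ)‖)
    simp

theorem vtx_mem (M : ℝ) : ((-I, 0) : ℂ × ℂ) ∈ Cn M := by
  show (-I : ℂ).im < -(M * ‖(0 : ℂ)‖)
  simp

/-- the base point of the vertical -/
theorem kpt_vtx (R c σ y u r : ℝ) :
    kpt R c σ y u r (-I, 0) = ((y : ℂ) + (R - r : ℝ) * I, (u : ℂ)) := by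
  rw [kpt_eq]
  simp only [mul_zero, add_zero]
  refine Prod.ext ?_ rfl
  simp only
  push_cast
  ring

section

variable {Λ H : ℝ} {F q : ℂ → ℂ} {b m : ℝ} {Ψ : ℂ → ℂ} {Mj Mk B : Set (ℂ × ℂ)}
  {A : Set ℝ} {P : ℝ → ℂ} {c k : ℝ → ℝ} {K s y₀ u₀ σ : ℝ} {al p th : ℂ × ℂ → ℂ} {J : ℂ → ℂ}
  {y u : ℕ → ℝ}

theorem W5.isOpen_Dm (W : W5 Λ H F q b m Ψ Mj Mk B A P c k K y₀ u₀ σ s al p th J) :
    IsOpen (Dm Mj Mk) :=
  (W.rhj.dn.op.inter W.rhk.dn.op).inter (isOpen_ne_fun continuous_snd continuous_const)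

variable {r : ℕ → ℝ}

theorem tendsto_pos (hr : Tendsto r atTop (𝓝 0)) (h0 : ∀ n, 0 < r n) :
    Tendsto r atTop (𝓝[>] 0) :=
  tendsto_nhdsWithin_iff.2 ⟨hr, Eventually.of_forall h0⟩

/-- compacts of the wide cone -/
theorem ev_wk (W : W5 Λ H F q b m Ψ Mj Mk B A P c k K y₀ u₀ σ s al p th J)
    (S : Sq A y₀ u₀ y u) (hr : Tendsto r atTop (𝓝[>] 0)) {D : Set (ℂ × ℂ)} (hD : IsCompact D)
    (hDs : D ⊆ Wd (s - σ)) :
    ∀ᶠ n in atTop, ∀ z ∈ D, kpt (P (u n)).im (c u₀) σ (y n) (u n) (r n) z ∈ Mk := by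
  obtain ⟨d, hd, r₀, hr₀, h1⟩ := blow_dom W.u0 W.cR W.cc (W.hb u₀ W.u0) W.regk
    (hD.image (continuous_lsh (c u₀) σ)) (lsh_Wd hDs)
  have := ev_of S.yt S.ut (Eventually.of_forall S.uA) hr
    (Q := fun u y r => ∀ z ∈ lsh (c u₀) σ '' D, bpt (P u).im y u r z ∈ Mk) hd hr₀ h1
  filter_upwards [this] with n hn z hz
  exact hn _ ⟨z, hz, rfl⟩

/-- compacts of the narrow cone -/
theorem ev_wj (W : W5 Λ H F q b m Ψ Mj Mk B A P c k K y₀ u₀ σ s al p th J)
    (S : Sq A y₀ u₀ y u) (hr : Tendsto r atTop (𝓝[>] 0)) {D : Set (ℂ × ℂ)} (hD : IsCompact D)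
    (hDs : D ⊆ Nr) :
    ∀ᶠ n in atTop, ∀ z ∈ D, kpt (P (u n)).im (c u₀) σ (y n) (u n) (r n) z ∈ Mj := by
  have hs : lsh (c u₀) σ '' D ⊆ Gc (c u₀) σ := by
    refine lsh_Wd (s := σ) ?_
    intro z hz
    refine ⟨(hDs hz).2, ?_⟩
    rw [sub_self, zero_mul]
    exact (hDs hz).1
  obtain ⟨d, hd, r₀, hr₀, h1⟩ := blow_dom W.u0 W.cR W.cc (W.hb u₀ W.u0) W.regj
    (hD.image (continuous_lsh (c u₀) σ)) hs
  have := ev_of S.yt S.ut (Eventually.of_forall S.uA) hr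
    (Q := fun u y r => ∀ z ∈ lsh (c u₀) σ '' D, bpt (P u).im y u r z ∈ Mj) hd hr₀ h1
  filter_upwards [this] with n hn z hz
  exact hn _ ⟨z, hz, rfl⟩

/-- compacts of the native cone -/
theorem ev_cn (W : W5 Λ H F q b m Ψ Mj Mk B A P c k K y₀ u₀ σ s al p th J)
    (S : Sq A y₀ u₀ y u) (hr : Tendsto r atTop (𝓝[>] 0)) {D : Set (ℂ × ℂ)} (hD : IsCompact D)
    (hDs : D ⊆ Cn (|σ| + K + 1)) :
    ∀ᶠ n in atTop, ∀ z ∈ D, kpt (P (u n)).im (c u₀) σ (y n) (u n) (r n) z ∈ B := by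
  obtain ⟨L₀, hL₀⟩ := hD.isBounded.exists_norm_le
  set L : ℝ := max 1 L₀ with hL
  have hL1 : 1 ≤ L := le_max_left _ _
  have hLz : ∀ z ∈ D, ‖z‖ ≤ L := fun z hz => (hL₀ z hz).trans (le_max_right _ _)
  obtain ⟨δ, hδ, hcone⟩ := W.coneU (1 / 2) (by norm_num)
  have hr0 : Tendsto r atTop (𝓝 0) := hr.mono_right nhdsWithin_le_nhds
  have e1 : ∀ᶠ n in atTop, 0 < r n := hr.eventually self_mem_nhdsWithin
  have e2 : ∀ᶠ n in atTop, r n * L < δ := by
    have : Tendsto (fun n => r n * L) atTop (𝓝 (0 * L)) := hr0.mul_const L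
    rw [zero_mul] at this
    exact this.eventually (gt_mem_nhds hδ)
  have e3 : ∀ᶠ n in atTop, |c (u n) - c u₀| < 1 / 2 := by
    have h1 : Tendsto u atTop (𝓝[A] u₀) :=
      tendsto_nhdsWithin_iff.2 ⟨S.ut, Eventually.of_forall S.uA⟩
    have h2 : Tendsto (fun n => c (u n)) atTop (𝓝 (c u₀)) := (W.cc u₀ W.u0).tendsto.comp h1
    have := Metric.tendsto_nhds.1 h2 (1 / 2) (by norm_num)
    simpa [Real.dist_eq] using this
  have e4 : ∀ᶠ n in atTop, b < (P (u n)).im - r n * (L + |c u₀| * L + |σ| * L) := by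
    have h1 : Tendsto u atTop (𝓝[A] u₀) :=
      tendsto_nhdsWithin_iff.2 ⟨S.ut, Eventually.of_forall S.uA⟩
    have h2 : Tendsto (fun n => (P (u n)).im) atTop (𝓝 (P u₀).im) :=
      (W.cR u₀ W.u0).tendsto.comp h1
    have h3 : Tendsto (fun n => (P (u n)).im - r n * (L + |c u₀| * L + |σ| * L)) atTop
        (𝓝 ((P u₀).im - 0 * (L + |c u₀| * L + |σ| * L))) := h2.sub (hr0.mul_const _)
    rw [zero_mul, sub_zero] at h3
    exact h3.eventually (lt_mem_nhds (W.hb u₀ W.u0))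
  filter_upwards [e1, e2, e3, e4] with n k1 k2 k3 k4 z hz
  have hz1 : ‖z.2‖ ≤ L := (norm_snd_le z).trans (hLz z hz)
  have hz2 : ‖z.1‖ ≤ L := (norm_fst_le z).trans (hLz z hz)
  have hzc : z.1.im < -((|σ| + K + 1) * ‖z.2‖) := hDs hz
  rw [kpt_eq]
  have him : ((y n : ℂ) + ((P (u n)).im : ℂ) * I + r n * (z.1 + (I * c u₀ + σ) * z.2)).im =
      (P (u n)).im + r n * (z.1.im + c u₀ * z.2.re + σ * z.2.im) := by
    simp only [add_im, mul_im, add_re, mul_re, I_re, I_im, ofReal_re, ofReal_im]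
    ring
  have hre2 : |z.2.re| ≤ ‖z.2‖ := abs_re_le_norm _
  have him2 : |z.2.im| ≤ ‖z.2‖ := abs_im_le_norm _
  have a1 : |c u₀ * z.2.re| ≤ |c u₀| * L := by
    rw [abs_mul]; exact mul_le_mul_of_nonneg_left (hre2.trans hz1) (abs_nonneg _)
  have a2 : |σ * z.2.im| ≤ |σ| * L := by
    rw [abs_mul]; exact mul_le_mul_of_nonneg_left (him2.trans hz1) (abs_nonneg _)
  have a3 : |z.1.im| ≤ L := (abs_im_le_norm _).trans hz2
  refine hcone (u n) (S.uA n) (r n * z.2) ?_ _ ?_ ?_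
  · rw [norm_mul, norm_real, Real.norm_of_nonneg k1.le]
    exact lt_of_le_of_lt (mul_le_mul_of_nonneg_left hz1 k1.le) k2
  · rw [him]
    have h1 : -(L + |c u₀| * L + |σ| * L) ≤ z.1.im + c u₀ * z.2.re + σ * z.2.im := by
      have := (abs_le.1 a1).1
      have := (abs_le.1 a2).1
      have := (abs_le.1 a3).1
      linarith
    have h2 := mul_le_mul_of_nonneg_left h1 k1.le
    linarith
  · rw [him]
    have b1 : ((r n : ℂ) * z.2).re = r n * z.2.re := by simp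
    have b2 : ((r n : ℂ) * z.2).im = r n * z.2.im := by simp
    have b3 : ‖(r n : ℂ) * z.2‖ = r n * ‖z.2‖ := by
      rw [norm_mul, norm_real, Real.norm_of_nonneg k1.le]
    rw [b1, b2, b3, abs_mul, abs_of_pos k1]
    have c1 : (c u₀ - c (u n)) * z.2.re ≤ 1 / 2 * ‖z.2‖ := by
      have h1 : |(c u₀ - c (u n)) * z.2.re| ≤ 1 / 2 * ‖z.2‖ := by
        rw [abs_mul, abs_sub_comm]
        exact mul_le_mul k3.le hre2 (abs_nonneg _) (by norm_num)
      exact (le_abs_self _).trans h1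
    have c2 : σ * z.2.im ≤ |σ| * ‖z.2‖ := by
      have h1 : |σ * z.2.im| ≤ |σ| * ‖z.2‖ := by
        rw [abs_mul]; exact mul_le_mul_of_nonneg_left him2 (abs_nonneg _)
      exact (le_abs_self _).trans h1
    have c3 : K * |z.2.im| ≤ K * ‖z.2‖ := mul_le_mul_of_nonneg_left him2 W.K0.le
    have key : z.1.im + c u₀ * z.2.re + σ * z.2.im <
        c (u n) * z.2.re - K * |z.2.im| - 1 / 2 * ‖z.2‖ := by
      have : z.1.im < -((|σ| + K + 1) * ‖z.2‖) := hzc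
      nlinarith
    have := mul_lt_mul_of_pos_left key k1
    linarith

/-- the label stays away from zero -/
theorem ev_ne (W : W5 Λ H F q b m Ψ Mj Mk B A P c k K y₀ u₀ σ s al p th J)
    (S : Sq A y₀ u₀ y u) (hr : Tendsto r atTop (𝓝[>] 0)) {D : Set (ℂ × ℂ)} (hD : IsCompact D) :
    ∀ᶠ n in atTop, ∀ z ∈ D, (kpt (P (u n)).im (c u₀) σ (y n) (u n) (r n) z).2 ≠ 0 := by
  obtain ⟨L₀, hL₀⟩ := hD.isBounded.exists_norm_le
  set L : ℝ := max 1 L₀ with hL
  have hLz : ∀ z ∈ D, ‖z‖ ≤ L := fun z hz => (hL₀ z hz).trans (le_max_right _ _)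
  have hr0 : Tendsto r atTop (𝓝 0) := hr.mono_right nhdsWithin_le_nhds
  have hu0 : 0 < |u₀| := abs_pos.2 (W.uz u₀ W.u0)
  have e1 : ∀ᶠ n in atTop, 0 < r n := hr.eventually self_mem_nhdsWithin
  have e2 : ∀ᶠ n in atTop, r n * L < |u n| := by
    have h1 : Tendsto (fun n => |u n| - r n * L) atTop (𝓝 (|u₀| - 0 * L)) :=
      (S.ut.abs).sub (hr0.mul_const L)
    rw [zero_mul, sub_zero] at h1
    filter_upwards [h1.eventually (lt_mem_nhds hu0)] with n hn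
    linarith
  filter_upwards [e1, e2] with n k1 k2 z hz h0
  rw [kpt_eq] at h0
  simp only at h0
  have h1 : (u n : ℂ) = -(r n * z.2) := by linear_combination h0
  have h2 : |u n| = r n * ‖z.2‖ := by
    have := congrArg norm h1
    rwa [norm_real, Real.norm_eq_abs, norm_neg, norm_mul, norm_real,
      Real.norm_of_nonneg k1.le] at this
  have h3 : ‖z.2‖ ≤ L := (norm_snd_le z).trans (hLz z hz)
  have := mul_le_mul_of_nonneg_left h3 k1.le
  linarith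

/-- near every point of `Om` the actual points are in the domain of the position -/
theorem near_om (W : W5 Λ H F q b m Ψ Mj Mk B A P c k K y₀ u₀ σ s al p th J)
    (S : Sq A y₀ u₀ y u) (hr : Tendsto r atTop (𝓝[>] 0)) {z : ℂ × ℂ}
    (hz : z ∈ Om (|σ| + K + 1)) :
    ∃ ρ > 0, ball z ρ ⊆ Om (|σ| + K + 1) ∧ ∀ᶠ n in atTop, ∀ z' ∈ ball z ρ,
      kpt (P (u n)).im (c u₀) σ (y n) (u n) (r n) z' ∈ Dm Mj Mk := by
  rcases hz with hz | hz
  · obtain ⟨ρ, hρ, hs⟩ := Metric.isOpen_iff.1 isOpen_Nr z hz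
    have h1 : closedBall z (ρ / 2) ⊆ Nr := (closedBall_subset_ball (by linarith)).trans hs
    have h2 : closedBall z (ρ / 2) ⊆ Wd (s - σ) := fun p hp =>
      ⟨(h1 hp).2, lt_of_lt_of_le (h1 hp).1
        (mul_nonneg (by linarith [W.σs]) (h1 hp).2.le)⟩
    refine ⟨ρ / 2, by positivity, (ball_subset_closedBall.trans h1).trans subset_union_left, ?_⟩
    filter_upwards [ev_wj W S hr (isCompact_closedBall _ _) h1,
      ev_wk W S hr (isCompact_closedBall _ _) h2, ev_ne W S hr (isCompact_closedBall z (ρ / 2))]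
      with n k1 k2 k3 z' hz'
    have hz'' := ball_subset_closedBall hz'
    exact ⟨⟨k1 _ hz'', k2 _ hz''⟩, k3 _ hz''⟩
  · obtain ⟨ρ, hρ, hs⟩ := Metric.isOpen_iff.1 (isOpen_Cn _) z hz
    have h1 : closedBall z (ρ / 2) ⊆ Cn (|σ| + K + 1) :=
      (closedBall_subset_ball (by linarith)).trans hs
    refine ⟨ρ / 2, by positivity, (ball_subset_closedBall.trans h1).trans subset_union_right, ?_⟩
    filter_upwards [ev_cn W S hr (isCompact_closedBall _ _) h1,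
      ev_ne W S hr (isCompact_closedBall z (ρ / 2))] with n k1 k3 z' hz'
    have hz'' := ball_subset_closedBall hz'
    exact ⟨⟨W.Bj (k1 _ hz''), W.Bk (k1 _ hz'')⟩, k3 _ hz''⟩

/-- the position on `Om` along any filter -/
theorem th_om (W : W5 Λ H F q b m Ψ Mj Mk B A P c k K y₀ u₀ σ s al p th J)
    (S : Sq A y₀ u₀ y u) (hr : Tendsto r atTop (𝓝[>] 0)) {z : ℂ × ℂ}
    (hz : z ∈ Om (|σ| + K + 1)) :
    ∃ ρ > 0, ball z ρ ⊆ Om (|σ| + K + 1) ∧ ∀ᶠ n in atTop,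
      DifferentiableOn ℂ (fun z' => th (kpt (P (u n)).im (c u₀) σ (y n) (u n) (r n) z'))
        (ball z ρ) ∧
      DifferentiableOn ℂ (fun z' => al (kpt (P (u n)).im (c u₀) σ (y n) (u n) (r n) z'))
        (ball z ρ) ∧
      ∀ z' ∈ ball z ρ, kpt (P (u n)).im (c u₀) σ (y n) (u n) (r n) z' ∈ Dm Mj Mk := by
  obtain ⟨ρ, hρ, hs, hev⟩ := near_om W S hr hz
  refine ⟨ρ, hρ, hs, hev.mono fun n hn => ⟨?_, ?_, hn⟩⟩
  · intro z' hz'
    have h1 : DifferentiableAt ℂ th (kpt (P (u n)).im (c u₀) σ (y n) (u n) (r n) z') :=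
      W.dth.differentiableAt (W.isOpen_Dm.mem_nhds (hn z' hz'))
    exact (DifferentiableAt.comp z' h1 (diff_kpt _ _ _ _ _ _ z')).differentiableWithinAt
  · intro z' hz'
    have h1 : DifferentiableAt ℂ al (kpt (P (u n)).im (c u₀) σ (y n) (u n) (r n) z') :=
      W.dal.differentiableAt (W.rhk.dn.op.mem_nhds (hn z' hz').1.2)
    exact (DifferentiableAt.comp z' h1 (diff_kpt _ _ _ _ _ _ z')).differentiableWithinAt

/-- the lines on the wide cone -/
theorem lines_wd (W : W5 Λ H F q b m Ψ Mj Mk B A P c k K y₀ u₀ σ s al p th J)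
    (S : Sq A y₀ u₀ y u) (hr : Tendsto r atTop (𝓝[>] 0)) {z : ℂ × ℂ} (hz : z ∈ Wd (s - σ)) :
    ∃ V ∈ 𝓝 z, ∀ᶠ n in atTop,
      DifferentiableOn ℂ (fun z' => al (kpt (P (u n)).im (c u₀) σ (y n) (u n) (r n) z')) V ∧
      DifferentiableOn ℂ (fun z' => p (kpt (P (u n)).im (c u₀) σ (y n) (u n) (r n) z')) V := by
  obtain ⟨ρ, hρ, hs⟩ := Metric.isOpen_iff.1 (isOpen_WB (s - σ)) z hz
  have h1 : closedBall z (ρ / 2) ⊆ Wd (s - σ) := (closedBall_subset_ball (by linarith)).trans hs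
  refine ⟨ball z (ρ / 2), ball_mem_nhds _ (by positivity), ?_⟩
  filter_upwards [ev_wk W S hr (isCompact_closedBall _ _) h1] with n hn
  constructor
  · intro z' hz'
    have h2 := W.dal.differentiableAt (W.rhk.dn.op.mem_nhds (hn z' (ball_subset_closedBall hz')))
    exact (DifferentiableAt.comp z' h2 (diff_kpt _ _ _ _ _ _ z')).differentiableWithinAt
  · intro z' hz'
    have h2 := W.dp.differentiableAt (W.rhk.dn.op.mem_nhds (hn z' (ball_subset_closedBall hz')))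
    exact (DifferentiableAt.comp z' h2 (diff_kpt _ _ _ _ _ _ z')).differentiableWithinAt

/-- the limit of the position on `Om` along an ultrafilter -/
theorem lim_om (W : W5 Λ H F q b m Ψ Mj Mk B A P c k K y₀ u₀ σ s al p th J)
    (S : Sq A y₀ u₀ y u) (hr : Tendsto r atTop (𝓝[>] 0)) {C c₁ : ℝ} (hc₁ : 0 < c₁) {h : ℕ → ℝ}
    (hN : ∀ n, Nst H b F P th C c₁ (h n) (y n) (u n)) (hrh : ∀ n, 0 < r n ∧ r n < h n)
    {𝒰 : Ultrafilter ℕ} (h𝒰 : (𝒰 : Filter ℕ) ≤ atTop) :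
    ∃ (N : ℕ → ℤ) (θ : ℂ × ℂ → ℂ), DifferentiableOn ℂ θ (Om (|σ| + K + 1)) ∧
      TendstoLocallyUniformlyOn (fun n z =>
        th (kpt (P (u n)).im (c u₀) σ (y n) (u n) (r n) z) - (N n : ℂ)) θ (𝒰 : Filter ℕ)
        (Om (|σ| + K + 1)) ∧ ∀ z ∈ Om (|σ| + K + 1), θ z ∈ Sb H := by
  have hH : 0 < H := W.crv.cv.b0
  have hM : 0 ≤ |σ| + K + 1 := by have := abs_nonneg σ; have := W.K0; linarith
  have hf : LocStrip (𝒰 : Filter ℕ) (fun n z =>
      th (kpt (P (u n)).im (c u₀) σ (y n) (u n) (r n) z)) H (Om (|σ| + K + 1)) := by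
    intro z hz
    obtain ⟨ρ, hρ, hs, hev⟩ := th_om W S hr hz
    refine ⟨ρ, hρ, h𝒰 (hev.mono fun n hn => ⟨hn.1, fun z' hz' => ?_⟩)⟩
    have h1 : |(th (kpt (P (u n)).im (c u₀) σ (y n) (u n) (r n) z')).im| < H :=
      W.mem _ (hn.2.2 z' hz')
    exact h1.le
  have h0 : ∀ᶠ n in (𝒰 : Filter ℕ),
      |(th (kpt (P (u n)).im (c u₀) σ (y n) (u n) (r n) (-I, 0))).im| ≤ H - c₁ * H := by
    refine Eventually.of_forall fun n => ?_
    rw [kpt_vtx]
    have := (hN n).mid (r n) (hrh n).1 (hrh n).2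
    rw [vp] at this
    linarith
  obtain ⟨N, θ, -, h1, h2, h3, -⟩ := ult_strip 𝒰 (isOpen_Om _) (precon_Om hM) hH
    (mul_pos hc₁ hH) hf (Or.inr (vtx_mem _)) h0
  exact ⟨N, θ, h1, h2, fun z hz => h3 z hz⟩

/-- **the data `PD`** -/
theorem pd_of (W : W5 Λ H F q b m Ψ Mj Mk B A P c k K y₀ u₀ σ s al p th J)
    (S : Sq A y₀ u₀ y u) (T : Tou H P c u₀ σ th y u) (hr : Tendsto r atTop (𝓝 0)) {C c₁ : ℝ}
    (hc₁ : 0 < c₁) {h : ℕ → ℝ} (hN : ∀ n, Nst H b F P th C c₁ (h n) (y n) (u n))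
    (hrh : ∀ n, 0 < r n ∧ r n < h n) {𝒰 : Ultrafilter ℕ} (h𝒰 : (𝒰 : Filter ℕ) ≤ atTop) :
    PD (𝒰 : Filter ℕ) H F q (fun n z => al (kpt (P (u n)).im (c u₀) σ (y n) (u n) (r n) z))
      (fun n z => p (kpt (P (u n)).im (c u₀) σ (y n) (u n) (r n) z))
      (fun n z => th (kpt (P (u n)).im (c u₀) σ (y n) (u n) (r n) z)) where
  pos := by
    intro z hz
    have hr' := tendsto_pos hr fun n => (hrh n).1
    obtain ⟨ρ, hρ, -, hev⟩ := th_om W S hr' (z := z) (Or.inl hz)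
    refine ⟨ball z ρ, ball_mem_nhds _ hρ, h𝒰 (hev.mono fun n hn => ⟨hn.1, fun z' hz' => ?_⟩)⟩
    exact ⟨W.mem _ (hn.2.2 z' hz'), W.inc _ (hn.2.2 z' hz')⟩
  mid := by
    have hr' := tendsto_pos hr fun n => (hrh n).1
    obtain ⟨N, θ, h1, h2, h3⟩ := lim_om W S hr' hc₁ hN hrh h𝒰
    have hz : ((-I, I) : ℂ × ℂ) ∈ Nr := by
      constructor
      · show (-I : ℂ).im < 0
        simp
      · show 0 < (I : ℂ).im
        simp
    have h4 : |(θ (-I, I)).im| < H := h3 _ (Or.inl hz)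
    refine ⟨_, hz, (H - |(θ (-I, I)).im|) / 2, by linarith, ?_⟩
    have h5 := h2.tendsto_at (Or.inl hz : ((-I, I) : ℂ × ℂ) ∈ Om (|σ| + K + 1))
    have h6 : Tendsto (fun n => |(th (kpt (P (u n)).im (c u₀) σ (y n) (u n) (r n) (-I, I)) -
        (N n : ℂ)).im|) (𝒰 : Filter ℕ) (𝓝 |(θ (-I, I)).im|) :=
      (continuous_abs.comp Complex.continuous_im).continuousAt.tendsto.comp h5
    filter_upwards [h6.eventually (gt_mem_nhds (show |(θ (-I, I)).im| <
      H - (H - |(θ (-I, I)).im|) / 2 by linarith))] with n hn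
    have e1 : (th (kpt (P (u n)).im (c u₀) σ (y n) (u n) (r n) (-I, I)) - (N n : ℂ)).im =
        (th (kpt (P (u n)).im (c u₀) σ (y n) (u n) (r n) (-I, I))).im := by simp
    rw [e1] at hn
    exact hn.le
  touch := by
    intro a w₀ hw hw' δ₀ hδ₀
    obtain ⟨ε, hε, hev⟩ := T r (tendsto_pos hr fun n => (hrh n).1) w₀ hw hw' a δ₀ hδ₀
    exact ⟨ε, hε, h𝒰 hev⟩

end

end Vale.Agent.P097.A5
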