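import Vale.Agent.P097.H920.Inst
import Vale.Agent.P097.H190.EnG
import Vale.Agent.P097.H407.Hol

/-!
# P097 / case [c] / row A5.CONS (helper920)

The consumer of the limit world theorem (190, `EN.no_world`) for lines in homogeneous
coordinates `[A : B : -C] = [l cos a : l sin a : -l p]`. The limit line may be honest, isotropic or
the line at infinity, and the type may change from point to point.
-/

set_option linter.all false

open Complex Metric Filter Topology Set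
open scoped ComplexConjugate

namespace Vale.Agent.P097.H920

open Vale.Agent.P097.TC
open Vale.Agent.P097.H190.EN (Dom Low WorldL Ext dx no_worldL isOpen_dom cc_of_unif)

variable {Λ b : ℝ} {F q : ℂ → ℂ}

/-- incidence function of the line `[A : B : -C]` -/
noncomputable def Pr (F q : ℂ → ℂ) (A B C x : ℂ) : ℂ :=
  deriv F x * (q x * (A * Complex.cos (F x) + B * Complex.sin (F x)) - C) +
    deriv q x * (B * Complex.cos (F x) - A * Complex.sin (F x))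

theorem Pr_Mi (F q : ℂ → ℂ) (l a p x : ℂ) :
    Pr F q (l * Complex.cos a) (l * Complex.sin a) (l * p) x = l * Mi F q a p x := by
  rw [Pr, Mi, Complex.cos_sub, Complex.sin_sub]
  ring

theorem Pr_Mi1 (F q : ℂ → ℂ) (a p x : ℂ) :
    Pr F q (Complex.cos a) (Complex.sin a) p x = Mi F q a p x := by
  have := Pr_Mi F q 1 a p x
  simpa using this

theorem Pr_hasDerivAt (h : Cv Λ b F q) (A B C : ℂ) {x : ℂ} (hx : x ∈ Sb b) :
    HasDerivAt (Pr F q A B C) (deriv (deriv F) x *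
      (q x * (A * Complex.cos (F x) + B * Complex.sin (F x)) - C) +
      (deriv F x ^ 2 * q x + deriv (deriv q) x) *
        (B * Complex.cos (F x) - A * Complex.sin (F x))) x := by
  have hF := Cv.F1 h hx
  have hF2 := Cv.F2 h hx
  have hq := Cv.q1 h hx
  have hq2 := Cv.q2 h hx
  have hc := hF.ccos
  have hs := hF.csin
  have hu := (hc.const_mul A).add (hs.const_mul B)
  have hv := (hc.const_mul B).sub (hs.const_mul A)
  have h1 := hF2.mul ((hq.mul hu).sub_const C)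
  have h2 := hq2.mul hv
  have h3 := h1.add h2
  refine h3.congr_deriv ?_
  simp only [Pi.mul_apply, Pi.add_apply, Pi.sub_apply]
  ring

theorem Pr_deriv (h : Cv Λ b F q) (A B C : ℂ) {x : ℂ} (hx : x ∈ Sb b) :
    deriv F x * deriv (Pr F q A B C) x =
      deriv (deriv F) x * Pr F q A B C x +
        (Λ : ℂ) ^ 3 * (B * Complex.cos (F x) - A * Complex.sin (F x)) := by
  rw [(Pr_hasDerivAt h A B C hx).deriv, ← h.wr x hx, Pr]
  ring

theorem Pr_diff (h : Cv Λ b F q) (A B C : ℂ) : DifferentiableOn ℂ (Pr F q A B C) (Sb b) :=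
  fun x hx => (Pr_hasDerivAt h A B C hx).differentiableAt.differentiableWithinAt

theorem uv_zero {A B c s : ℂ} (hcs : s ^ 2 + c ^ 2 = 1) (h1 : A * c + B * s = 0)
    (h2 : B * c - A * s = 0) : A = 0 ∧ B = 0 := by
  constructor
  · linear_combination (-A) * hcs + c * h1 - s * h2
  · linear_combination (-B) * hcs + s * h1 + c * h2

/-- no line contains an arc of the curve -/
theorem Pr_not_zero (h : Cv Λ b F q) {A B C : ℂ} (hABC : ¬ (A = 0 ∧ B = 0 ∧ C = 0)) {x₀ : ℂ}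
    (hx : x₀ ∈ Sb b) : ¬ ∀ᶠ x in 𝓝 x₀, Pr F q A B C x = 0 := by
  intro h0
  have hS : ∀ᶠ x in 𝓝 x₀, x ∈ Sb b := (isOpen_Sb b).mem_nhds hx
  have hd : ∀ᶠ x in 𝓝 x₀, deriv (Pr F q A B C) x = 0 := by
    filter_upwards [h0.eventually_nhds] with x hx0
    have : Pr F q A B C =ᶠ[𝓝 x] fun _ => (0 : ℂ) := hx0
    rw [this.deriv_eq]
    simp
  have hv : ∀ᶠ x in 𝓝 x₀, B * Complex.cos (F x) - A * Complex.sin (F x) = 0 := by
    filter_upwards [h0, hd, hS] with x h1 h2 h3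
    have h4 := Pr_deriv h A B C h3
    rw [h1, h2, mul_zero, mul_zero, zero_add, eq_comm, mul_eq_zero] at h4
    exact h4.resolve_left (Cv.L3 h)
  have hu : ∀ᶠ x in 𝓝 x₀, (A * Complex.cos (F x) + B * Complex.sin (F x)) * deriv F x = 0 := by
    filter_upwards [hv.eventually_nhds, hS] with x h1 h2
    have hF := Cv.F1 h h2
    have h3 := (hF.ccos.const_mul B).sub (hF.csin.const_mul A)
    have h4 : (fun y => B * Complex.cos (F y) - A * Complex.sin (F y)) =ᶠ[𝓝 x]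
        fun _ => (0 : ℂ) := h1
    have h5 : deriv (fun y => B * Complex.cos (F y) - A * Complex.sin (F y)) x = 0 := by
      rw [h4.deriv_eq]; simp
    have h6 : deriv (fun y => B * Complex.cos (F y) - A * Complex.sin (F y)) x =
        B * (-Complex.sin (F x) * deriv F x) - A * (Complex.cos (F x) * deriv F x) := h3.deriv
    rw [h5] at h6
    linear_combination h6
  have hfr : ∃ᶠ x in 𝓝 x₀, deriv F x ≠ 0 := fun hcon => not_F1 h hx (by simpa using hcon)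
  obtain ⟨x, hx1, hx2, hx3, hx4⟩ := (hfr.and_eventually (hv.and (hu.and h0))).exists
  have hu' : A * Complex.cos (F x) + B * Complex.sin (F x) = 0 :=
    (mul_eq_zero.1 hx3).resolve_right hx1
  obtain ⟨hA, hB⟩ := uv_zero (Complex.sin_sq_add_cos_sq (F x)) hu' hx2
  refine hABC ⟨hA, hB, ?_⟩
  rw [Pr, hu', hx2] at hx4
  simp only [mul_zero, zero_sub, add_zero, mul_neg, neg_eq_zero, mul_eq_zero] at hx4
  exact hx4.resolve_left hx1

/-- isotropic lines and the line at infinity have only simple roots -/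
theorem Pr_iso_root (h : Cv Λ b F q) {A B C : ℂ} (hABC : ¬ (A = 0 ∧ B = 0 ∧ C = 0))
    (hiso : A ^ 2 + B ^ 2 = 0) {x : ℂ} (hx : x ∈ Sb b) (h0 : Pr F q A B C x = 0) :
    deriv (Pr F q A B C) x ≠ 0 := by
  intro hd
  have h4 := Pr_deriv h A B C hx
  rw [h0, hd, mul_zero, mul_zero, zero_add, eq_comm, mul_eq_zero] at h4
  have hv := h4.resolve_left (Cv.L3 h)
  have hu : A * Complex.cos (F x) + B * Complex.sin (F x) = 0 := by
    have h5 : (A * Complex.cos (F x) + B * Complex.sin (F x)) ^ 2 = 0 := by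
      have h6 := Complex.sin_sq_add_cos_sq (F x)
      linear_combination (A ^ 2 + B ^ 2) * h6 -
        (B * Complex.cos (F x) - A * Complex.sin (F x)) * hv + hiso
    exact pow_eq_zero_iff (two_ne_zero) |>.1 h5
  obtain ⟨hA, hB⟩ := uv_zero (Complex.sin_sq_add_cos_sq (F x)) hu hv
  refine hABC ⟨hA, hB, ?_⟩
  rw [Pr, hu, hv] at h0
  simp only [mul_zero, zero_sub, add_zero, mul_neg, neg_eq_zero, mul_eq_zero] at h0
  rcases h0 with h0 | h0
  · have h7 := (Pr_hasDerivAt h A B C hx).deriv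
    rw [hd, hu, hv] at h7
    simp only [mul_zero, zero_sub, add_zero, mul_neg] at h7
    have h8 : deriv (deriv F) x * C = 0 := by linear_combination h7
    exact (mul_eq_zero.1 h8).resolve_left (R2_ne h hx h0).2
  · exact h0

theorem Pr_add_one (hF : ∀ x ∈ Sb b, F (x + 1) = F x + 2 * Real.pi)
    (hq : ∀ x ∈ Sb b, q (x + 1) = q x) (A B C : ℂ) {x : ℂ} (hx : x ∈ Sb b) :
    Pr F q A B C (x + 1) = Pr F q A B C x := by
  have h1 := deriv_add_one hF hx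
  have h2 : deriv q (x + 1) = deriv q x := deriv_add_one (c := 0) (by simpa using hq) hx
  rw [Pr, Pr, h1, h2, hF x hx, hq x hx, Complex.cos_add_two_pi, Complex.sin_add_two_pi]

/-! ### convergence -/

section Conv

variable {ι E : Type*} [NormedAddCommGroup E] [NormedSpace ℂ E] {l : Filter ι}
variable {An Bn Cn : ι → E → ℂ} {A B C : E → ℂ} {z₀ : E} {V : Set E}

theorem triple_unif (hA : TendstoUniformlyOn An A l V) (hB : TendstoUniformlyOn Bn B l V)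
    (hC : TendstoUniformlyOn Cn C l V) (W : Set ℂ) :
    TendstoUniformlyOn (fun n (w : E × ℂ) => (An n w.1, Bn n w.1, Cn n w.1, w.2))
      (fun w : E × ℂ => (A w.1, B w.1, C w.1, w.2)) l (V ×ˢ W) := by
  rw [Metric.tendstoUniformlyOn_iff] at hA hB hC ⊢
  intro ε hε
  filter_upwards [hA ε hε, hB ε hε, hC ε hε] with n h1 h2 h3 w hw
  have h1' := h1 w.1 hw.1
  have h2' := h2 w.1 hw.1
  have h3' := h3 w.1 hw.1
  simp only [Prod.dist_eq, dist_self]
  exact max_lt h1' (max_lt h2' (max_lt h3' hε))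

/-- convergence of the incidence functions of lines in homogeneous coordinates -/
theorem cn_proj (h : Cv Λ b F q) (hV : V ∈ 𝓝 z₀)
    (dA : ∀ᶠ n in l, DifferentiableOn ℂ (An n) V) (dB : ∀ᶠ n in l, DifferentiableOn ℂ (Bn n) V)
    (dC : ∀ᶠ n in l, DifferentiableOn ℂ (Cn n) V)
    (uA : TendstoUniformlyOn An A l V) (uB : TendstoUniformlyOn Bn B l V)
    (uC : TendstoUniformlyOn Cn C l V) (cA : ContinuousAt A z₀) (cB : ContinuousAt B z₀)
    (cC : ContinuousAt C z₀) (hABC : ¬ (A z₀ = 0 ∧ B z₀ = 0 ∧ C z₀ = 0)) {x₀ : ℂ}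
    (hx : x₀ ∈ Sb b) :
    CN l (fun n w => Pr F q (An n w.1) (Bn n w.1) (Cn n w.1) w.2)
      (fun w => Pr F q (A w.1) (B w.1) (C w.1) w.2) z₀ x₀ := by
  refine ⟨?_, Pr_not_zero h hABC hx⟩
  have hW : V ×ˢ Sb b ∈ 𝓝 (z₀, x₀) := prod_mem_nhds hV ((isOpen_Sb b).mem_nhds hx)
  have hO : IsOpen {w : ℂ × ℂ × ℂ × ℂ | w.2.2.2 ∈ Sb b} :=
    (isOpen_Sb b).preimage (continuous_snd.comp (continuous_snd.comp continuous_snd))
  have hΨ : ContinuousOn (fun w : ℂ × ℂ × ℂ × ℂ => Pr F q w.1 w.2.1 w.2.2.1 w.2.2.2)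
      {w : ℂ × ℂ × ℂ × ℂ | w.2.2.2 ∈ Sb b} := by
    have c0 : ContinuousOn (fun w : ℂ × ℂ × ℂ × ℂ => w.2.2.2)
        {w : ℂ × ℂ × ℂ × ℂ | w.2.2.2 ∈ Sb b} :=
      (continuous_snd.comp (continuous_snd.comp continuous_snd)).continuousOn
    have cF := h.dF.continuousOn.comp c0 (fun w hw => hw)
    have cq := h.dq.continuousOn.comp c0 (fun w hw => hw)
    have cF1 := (Cv.dF1 h).continuousOn.comp c0 (fun w hw => hw)
    have cq1 := (Cv.dq1 h).continuousOn.comp c0 (fun w hw => hw)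
    have c1 : ContinuousOn (fun w : ℂ × ℂ × ℂ × ℂ => w.1)
        {w : ℂ × ℂ × ℂ × ℂ | w.2.2.2 ∈ Sb b} := continuous_fst.continuousOn
    have c2 : ContinuousOn (fun w : ℂ × ℂ × ℂ × ℂ => w.2.1)
        {w : ℂ × ℂ × ℂ × ℂ | w.2.2.2 ∈ Sb b} :=
      (continuous_fst.comp continuous_snd).continuousOn
    have c3 : ContinuousOn (fun w : ℂ × ℂ × ℂ × ℂ => w.2.2.1)
        {w : ℂ × ℂ × ℂ × ℂ | w.2.2.2 ∈ Sb b} :=
      (continuous_fst.comp (continuous_snd.comp continuous_snd)).continuousOn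
    have cs := Complex.continuous_sin.comp_continuousOn cF
    have cc := Complex.continuous_cos.comp_continuousOn cF
    exact (cF1.mul ((cq.mul ((c1.mul cc).add (c2.mul cs))).sub c3)).add
      (cq1.mul ((c2.mul cc).sub (c1.mul cs)))
  have hc : ContinuousAt (fun w : E × ℂ => (A w.1, B w.1, C w.1, w.2)) (z₀, x₀) := by
    have k1 : ContinuousAt (fun w : E × ℂ => A w.1) (z₀, x₀) :=
      ContinuousAt.comp (f := Prod.fst) cA continuousAt_fst
    have k2 : ContinuousAt (fun w : E × ℂ => B w.1) (z₀, x₀) :=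
      ContinuousAt.comp (f := Prod.fst) cB continuousAt_fst
    have k3 : ContinuousAt (fun w : E × ℂ => C w.1) (z₀, x₀) :=
      ContinuousAt.comp (f := Prod.fst) cC continuousAt_fst
    exact k1.prodMk (k2.prodMk (k3.prodMk continuousAt_snd))
  obtain ⟨N, hN, hNV, -, -, hU⟩ := near_comp hW (triple_unif uA uB uC (Sb b)) hc hO
    (by exact hx) hΨ
  refine ⟨N, hN, ?_, hU⟩
  filter_upwards [dA, dB, dC] with n h1 h2 h3
  have m1 : MapsTo (fun w : E × ℂ => w.1) N V := fun w hw => (hNV hw).1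
  have m2 : MapsTo (fun w : E × ℂ => w.2) N (Sb b) := fun w hw => (hNV hw).2
  have d1 := h1.comp (differentiableOn_fst (s := N)) m1
  have d2 := h2.comp (differentiableOn_fst (s := N)) m1
  have d3 := h3.comp (differentiableOn_fst (s := N)) m1
  have dF := h.dF.comp (differentiableOn_snd (s := N)) m2
  have dq := h.dq.comp (differentiableOn_snd (s := N)) m2
  have dF1 := (Cv.dF1 h).comp (differentiableOn_snd (s := N)) m2
  have dq1 := (Cv.dq1 h).comp (differentiableOn_snd (s := N)) m2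
  exact (dF1.mul ((dq.mul ((d1.mul dF.ccos).add (d2.mul dF.csin))).sub d3)).add
    (dq1.mul ((d2.mul dF.ccos).sub (d1.mul dF.csin)))

end Conv


/-! ### the world -/

/-- a good extension of the position to a ball about a real point -/
def ExtP (b : ℝ) (F q : ℂ → ℂ) (A B C th : ℂ × ℂ → ℂ) (w₀ : ℂ) (c δ ε : ℝ) : Prop :=
  ∃ g : ℂ × ℂ → ℂ, AnalyticOnNhd ℂ g (ball ((c : ℂ), w₀) δ) ∧
    ∀ z ∈ ball ((c : ℂ), w₀) δ, g z ∈ Sb b ∧ Pr F q (A z) (B z) (C z) (g z) = 0 ∧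
      deriv (Pr F q (A z) (B z) (C z)) (g z) ≠ 0 ∧ (z.1.im ≤ -ε → g z = th z)

/-- **The limit world in homogeneous coordinates**, on one slice `w = w₀` -/
structure PW {ι : Type*} (l : Filter ι) (b R : ℝ) (F q : ℂ → ℂ) (w₀ : ℂ) (ρw : ℝ) (An Bn Cn : ι → ℂ × ℂ → ℂ)
    (A B C : ℂ × ℂ → ℂ) (th : ι → ℂ × ℂ → ℂ) (θ : ℂ × ℂ → ℂ) : Prop where
  ρ0 : 0 < ρw
  hom : ∀ κ : ℂ, (κ.im < 0 ∨ (κ.im = 0 ∧ |κ.re| < R)) → ∃ V ∈ 𝓝 (κ, w₀),
    (∀ᶠ n in l, DifferentiableOn ℂ (An n) V ∧ DifferentiableOn ℂ (Bn n) V ∧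
      DifferentiableOn ℂ (Cn n) V) ∧ TendstoUniformlyOn An A l V ∧
    TendstoUniformlyOn Bn B l V ∧ TendstoUniformlyOn Cn C l V
  ne : ∀ κ : ℂ, (κ.im < 0 ∨ (κ.im = 0 ∧ |κ.re| < R)) →
    ¬ (A (κ, w₀) = 0 ∧ B (κ, w₀) = 0 ∧ C (κ, w₀) = 0)
  lim : TendstoLocallyUniformlyOn th θ l (Dom w₀ ρw)
  reg : ∀ z ∈ Dom w₀ ρw, ∃ V ∈ 𝓝 z, ∀ᶠ n in l, DifferentiableOn ℂ (th n) V ∧
    ∀ z' ∈ V, th n z' ∈ Sb b ∧ Pr F q (An n z') (Bn n z') (Cn n z') (th n z') = 0
  str : ∀ z ∈ Dom w₀ ρw, θ z ∈ Sb b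
  touch : ∀ c : ℝ, |c| < R → ∀ δ > 0, ∃ ε > 0, ∃ᶠ n in l,
    ¬ ExtP b F q (An n) (Bn n) (Cn n) (th n) w₀ c δ ε

section PWs

variable {ι : Type*} {l : Filter ι} [l.NeBot] {R : ℝ} {w₀ : ℂ} {ρw : ℝ}
  {An Bn Cn : ι → ℂ × ℂ → ℂ} {A B C : ℂ × ℂ → ℂ} {th : ι → ℂ × ℂ → ℂ} {θ : ℂ × ℂ → ℂ}

theorem PW.cont (W : PW l b R F q w₀ ρw An Bn Cn A B C th θ) {κ : ℂ}
    (hκ : κ.im < 0 ∨ (κ.im = 0 ∧ |κ.re| < R)) :
    ContinuousAt A (κ, w₀) ∧ ContinuousAt B (κ, w₀) ∧ ContinuousAt C (κ, w₀) := by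
  obtain ⟨V, hV, hd, uA, uB, uC⟩ := W.hom κ hκ
  have cA : ContinuousOn A V :=
    uA.continuousOn (hd.mono fun n hn => hn.1.continuousOn).frequently
  have cB : ContinuousOn B V :=
    uB.continuousOn (hd.mono fun n hn => hn.2.1.continuousOn).frequently
  have cC : ContinuousOn C V :=
    uC.continuousOn (hd.mono fun n hn => hn.2.2.continuousOn).frequently
  exact ⟨cA.continuousAt hV, cB.continuousAt hV, cC.continuousAt hV⟩

theorem PW.cn (h : Cv Λ b F q) (W : PW l b R F q w₀ ρw An Bn Cn A B C th θ) {κ : ℂ}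
    (hκ : κ.im < 0 ∨ (κ.im = 0 ∧ |κ.re| < R)) {x : ℂ} (hx : x ∈ Sb b) :
    ∃ N ∈ 𝓝 ((κ, w₀), x),
      (∀ᶠ n in l, AnalyticOnNhd ℂ
        (fun w : (ℂ × ℂ) × ℂ => Pr F q (An n w.1) (Bn n w.1) (Cn n w.1) w.2) N) ∧
      TendstoUniformlyOn
        (fun n (w : (ℂ × ℂ) × ℂ) => Pr F q (An n w.1) (Bn n w.1) (Cn n w.1) w.2)
        (fun w => Pr F q (A w.1) (B w.1) (C w.1) w.2) l N := by
  obtain ⟨V, hV, hd, uA, uB, uC⟩ := W.hom κ hκ
  obtain ⟨cA, cB, cC⟩ := W.cont hκ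
  obtain ⟨⟨N, hN, hN1, hN2⟩, -⟩ := cn_proj h hV (hd.mono fun n hn => hn.1)
    (hd.mono fun n hn => hn.2.1) (hd.mono fun n hn => hn.2.2) uA uB uC cA cB cC (W.ne κ hκ) hx
  refine ⟨interior N, interior_mem_nhds.2 hN, ?_, hN2.mono interior_subset⟩
  filter_upwards [hN1] with n hn
  exact Vale.Agent.P097.Hol.analyticOnNhd_of_differentiableOn isOpen_interior
    (hn.mono interior_subset)

theorem PW.root (h : Cv Λ b F q) (W : PW l b R F q w₀ ρw An Bn Cn A B C th θ) {κ : ℂ}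
    (hκ : κ ∈ Low) : Pr F q (A (κ, w₀)) (B (κ, w₀)) (C (κ, w₀)) (θ (κ, w₀)) = 0 := by
  have hz : (κ, w₀) ∈ Dom w₀ ρw := ⟨hκ, mem_ball_self W.ρ0⟩
  have hx := W.str _ hz
  obtain ⟨N, hN, hN1, hU⟩ := W.cn h (Or.inl hκ) hx
  have hc : ContinuousAt (fun w : (ℂ × ℂ) × ℂ => Pr F q (A w.1) (B w.1) (C w.1) w.2)
      ((κ, w₀), θ (κ, w₀)) :=
    (hU.continuousOn (hN1.mono fun n hn => hn.continuousOn).frequently).continuousAt hN
  have h1 := cc_of_unif hN hU hc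
  have h2 : Tendsto (fun n => th n (κ, w₀)) l (𝓝 (θ (κ, w₀))) :=
    W.lim.tendsto_at hz
  have h3 : Tendsto (fun n : ι => (n, (((κ, w₀), th n (κ, w₀)) : (ℂ × ℂ) × ℂ))) l
      (l ×ˢ 𝓝 ((κ, w₀), θ (κ, w₀))) := by
    refine Tendsto.prodMk tendsto_id ?_
    rw [nhds_prod_eq]
    exact Tendsto.prodMk tendsto_const_nhds h2
  have h4 := h1.comp h3
  obtain ⟨V, hV, hVn⟩ := W.reg _ hz
  refine tendsto_nhds_unique h4 (tendsto_const_nhds.congr' ?_)
  filter_upwards [hVn] with n hn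
  exact (hn.2 _ (mem_of_mem_nhds hV)).2.symm

/-- the instance of the limit world of helper190 -/
theorem PW.world (h : Cv Λ b F q) (hF : ∀ x ∈ Sb b, F (x + 1) = F x + 2 * Real.pi)
    (hq : ∀ x ∈ Sb b, q (x + 1) = q x) (W : PW l b R F q w₀ ρw An Bn Cn A B C th θ)
    (nt : ∃ κ ∈ Low, A (κ, w₀) ^ 2 + B (κ, w₀) ^ 2 = 0 ∨
      deriv (Pr F q (A (κ, w₀)) (B (κ, w₀)) (C (κ, w₀))) (θ (κ, w₀)) ≠ 0) :
    WorldL l b R w₀ ρw
      (fun n w => Pr F q (An n w.1) (Bn n w.1) (Cn n w.1) w.2)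
      (fun w => Pr F q (A w.1) (B w.1) (C w.1) w.2) th θ where
  H_pos := h.b0
  ρ_pos := W.ρ0
  conv := fun κ hκ x hx => W.cn h hκ hx
  per := fun n z x hx => Pr_add_one hF hq _ _ _ hx
  iso := by
    intro c hc x hx
    have hP : (c : ℂ).im < 0 ∨ ((c : ℂ).im = 0 ∧ |(c : ℂ).re| < R) := by
      right; simpa using hc
    have h1 : AnalyticAt ℂ (Pr F q (A ((c : ℂ), w₀)) (B ((c : ℂ), w₀)) (C ((c : ℂ), w₀))) x :=
      (Pr_diff h _ _ _).analyticAt ((isOpen_Sb b).mem_nhds hx)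
    rcases h1.eventually_eq_zero_or_eventually_ne_zero with h2 | h2
    · exact absurd h2 (Pr_not_zero h (W.ne c hP) hx)
    · exact h2
  lim := W.lim
  reg := W.reg
  str := W.str
  touch := by
    intro c hc δ hδ
    obtain ⟨ε, hε, hfr⟩ := W.touch c hc δ hδ
    exact ⟨ε, hε, hfr⟩
  nt := by
    obtain ⟨κ, hκ, hnt⟩ := nt
    refine ⟨κ, hκ, ?_⟩
    rcases hnt with hnt | hnt
    · exact Pr_iso_root h (W.ne κ (Or.inl hκ)) hnt
        (W.str _ ⟨hκ, mem_ball_self W.ρ0⟩) (W.root h hκ)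
    · exact hnt

/-- **The limit world in homogeneous coordinates does not exist** -/
theorem no_proj (h : Cv Λ b F q) (hF : ∀ x ∈ Sb b, F (x + 1) = F x + 2 * Real.pi)
    (hq : ∀ x ∈ Sb b, q (x + 1) = q x)
    (W : ∀ R : ℝ, PW l b R F q w₀ ρw An Bn Cn A B C th θ)
    (nt : ∃ κ ∈ Low, A (κ, w₀) ^ 2 + B (κ, w₀) ^ 2 = 0 ∨
      deriv (Pr F q (A (κ, w₀)) (B (κ, w₀)) (C (κ, w₀))) (θ (κ, w₀)) ≠ 0) : False :=
  no_worldL fun R => (W R).world h hF hq nt

/-- the bound on one interval of the edge -/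
theorem PW.bound (h : Cv Λ b F q) (hF : ∀ x ∈ Sb b, F (x + 1) = F x + 2 * Real.pi)
    (hq : ∀ x ∈ Sb b, q (x + 1) = q x) (W : PW l b R F q w₀ ρw An Bn Cn A B C th θ)
    (nt : ∃ κ ∈ Low, A (κ, w₀) ^ 2 + B (κ, w₀) ^ 2 = 0 ∨
      deriv (Pr F q (A (κ, w₀)) (B (κ, w₀)) (C (κ, w₀))) (θ (κ, w₀)) ≠ 0)
    {y : ℝ} (hy : 0 < y) (hyR : y < R) :
    b - |(θ (-(y : ℂ) * I, w₀)).im| ≤ 4 * b * y / R :=
  (W.world h hF hq nt).bound hy hyR

end PWs

end Vale.Agent.P097.H920
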