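import Vale.Agent.P097.TC.Defs5

/-!
# P097 / case [c] / record form of PW (helper920)

`LR`: the lines are normal at the windows `r n` whose ancestors up to the scale `S n` are
controlled (bounded, or records). `PWR`: the target of block (W).
The trichotomy (records, bounded, tangential) is done in block (AI).
-/

set_option linter.all false

open Complex Metric Filter Topology Set MeasureTheory
open scoped ComplexConjugate ENNReal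

namespace Vale.Agent.P097.A5

open Vale.Agent.P097.TC Vale.Agent.P097.H85 Vale.Agent.P097.H929

/-- `Im (al_k - F (θ_j))` on the vertical over `(y, u)`, at the depth `t` -/
noncomputable def vv (F : ℂ → ℂ) (P : ℝ → ℂ) (al th : ℂ × ℂ → ℂ) (y u t : ℝ) : ℝ :=
  (del F al th (vp P y u t)).im

/-- admissible windows: old scales `S n ≤ g n`, windows `r n ≤ G n (S n)` -/
structure Adm (g : ℕ → ℝ) (G : ℕ → ℝ → ℝ) (r S : ℕ → ℝ) : Prop where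
  S0 : ∀ n, 0 < S n
  Sg : ∀ n, S n ≤ g n
  r0 : ∀ n, 0 < r n
  rS : ∀ n, r n ≤ S n
  rG : ∀ n, r n ≤ G n (S n)
  St : Tendsto S atTop (𝓝 0)

/-- **the lines are normal at bounded windows and at record windows** -/
structure LR (H : ℝ) (F q : ℂ → ℂ) (P : ℝ → ℂ) (c : ℝ → ℝ) (u₀ σ s : ℝ) (al p th : ℂ × ℂ → ℂ)
    (y u g : ℕ → ℝ) (G : ℕ → ℝ → ℝ) : Prop where
  hon : ∀ r S : ℕ → ℝ, Adm g G r S → ∀ 𝒰 : Ultrafilter ℕ, (𝒰 : Filter ℕ) ≤ atTop →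
    ∀ V₀ : ℝ, (∀ᶠ n in (𝒰 : Filter ℕ), ∀ t : ℝ, r n ≤ t → t ≤ S n →
      |vv F P al th (y n) (u n) t| ≤ V₀) →
      Hon F q (s - σ) al p (fun n => kpt (P (u n)).im (c u₀) σ (y n) (u n) (r n)) 𝒰
  iso : ∀ r S : ℕ → ℝ, Adm g G r S → ∀ 𝒰 : Ultrafilter ℕ, (𝒰 : Filter ℕ) ≤ atTop →
    (∀ᶠ n in (𝒰 : Filter ℕ), ∀ t : ℝ, r n ≤ t → t ≤ S n →
      |vv F P al th (y n) (u n) t| ≤ 2 * |vv F P al th (y n) (u n) (r n)|) →
    Tendsto (fun n => vv F P al th (y n) (u n) (r n)) (𝒰 : Filter ℕ) atTop →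
      Iso F q (s - σ) al p (fun n => kpt (P (u n)).im (c u₀) σ (y n) (u n) (r n)) 𝒰 1
  iso' : ∀ r S : ℕ → ℝ, Adm g G r S → ∀ 𝒰 : Ultrafilter ℕ, (𝒰 : Filter ℕ) ≤ atTop →
    (∀ᶠ n in (𝒰 : Filter ℕ), ∀ t : ℝ, r n ≤ t → t ≤ S n →
      |vv F P al th (y n) (u n) t| ≤ 2 * |vv F P al th (y n) (u n) (r n)|) →
    Tendsto (fun n => vv F P al th (y n) (u n) (r n)) (𝒰 : Filter ℕ) atBot →
      Iso F q (s - σ) al p (fun n => kpt (P (u n)).im (c u₀) σ (y n) (u n) (r n)) 𝒰 (-1)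

/-- **PWR** (block W, record form) -/
def PWR : Prop := ∀ {Λ H : ℝ} {F q : ℂ → ℂ} {b m : ℝ} {Ψ : ℂ → ℂ} {Mj Mk B : Set (ℂ × ℂ)}
  {A : Set ℝ} {P : ℝ → ℂ} {c k : ℝ → ℝ} {K s : ℝ} {al p th : ℂ × ℂ → ℂ} {J : ℂ → ℂ},
  ∃ Nl : Set ℝ, volume Nl = 0 ∧ ∀ {y₀ u₀ σ : ℝ} {y u : ℕ → ℝ},
    W5 Λ H F q b m Ψ Mj Mk B A P c k K y₀ u₀ σ s al p th J y u →
    (∀ n, u n ∉ Nl) → ∀ {C c₁ : ℝ}, 0 < C → 0 < c₁ → ∀ {h : ℕ → ℝ},
    (∀ n, Nst H b F P th C c₁ (h n) (y n) (u n)) →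
    ∃ (g : ℕ → ℝ) (G : ℕ → ℝ → ℝ), (∀ n, 0 < g n ∧ g n < h n) ∧
      (∀ n x, 0 < x → 0 < G n x) ∧ LR H F q P c u₀ σ s al p th y u g G

/-- a record of a function on `(0, s₀]`, as late as wanted -/
theorem exists_rec {f : ℝ → ℝ} {s₀ M : ℝ} (hs₀ : 0 < s₀) (hM : 0 < M)
    (hf : ∀ t, 0 < t → t ≤ s₀ → ∃ B : ℝ, ∀ x, t ≤ x → x ≤ s₀ → |f x| ≤ B)
    (hinf : ∀ s, 0 < s → s ≤ s₀ → ∃ t, 0 < t ∧ t ≤ s ∧ M < |f t|) {Gf : ℝ → ℝ}
    (hG : ∀ x, 0 < x → 0 < Gf x) {δ : ℝ} (hδ : 0 < δ) :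
    ∃ S r : ℝ, 0 < S ∧ S ≤ s₀ ∧ S ≤ δ ∧ 0 < r ∧ r ≤ S ∧ r ≤ Gf S ∧ M / 2 < |f r| ∧
      ∀ t, r ≤ t → t ≤ S → |f t| ≤ 2 * |f r| := by
  by_cases hb : ∃ B : ℝ, ∃ s, 0 < s ∧ s ≤ s₀ ∧ ∀ t, 0 < t → t ≤ s → |f t| ≤ B
  · -- finite limit superior
    set T : Set ℝ := {B : ℝ | ∃ s, 0 < s ∧ s ≤ s₀ ∧ ∀ t, 0 < t → t ≤ s → |f t| ≤ B} with hT
    have hTne : T.Nonempty := hb
    have hlow : ∀ B ∈ T, M ≤ B := by
      rintro B ⟨s, hs, hs', h⟩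
      obtain ⟨t, ht, hts, hMt⟩ := hinf s hs hs'
      linarith [h t ht hts]
    have hbdd : BddBelow T := ⟨M, hlow⟩
    set β := sInf T with hβ
    have hβM : M ≤ β := le_csInf hTne hlow
    have hβ0 : 0 < β := by linarith
    obtain ⟨B, ⟨s, hs, hs', hB⟩, hBlt⟩ := exists_lt_of_csInf_lt hTne
      (show sInf T < 4 / 3 * β by rw [← hβ]; linarith)
    set S := min s δ with hS
    have hS0 : 0 < S := lt_min hs hδ
    have hSs : S ≤ s := min_le_left _ _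
    have hnot : ¬ (2 / 3 * β ∈ T) := by
      intro h
      have := csInf_le hbdd h
      rw [← hβ] at this
      linarith
    have hmin : 0 < min S (Gf S) := lt_min hS0 (hG S hS0)
    have hex : ∃ t, 0 < t ∧ t ≤ min S (Gf S) ∧ 2 / 3 * β < |f t| := by
      by_contra hcon
      push Not at hcon
      exact hnot ⟨min S (Gf S), hmin, (min_le_left _ _).trans (hSs.trans hs'), hcon⟩
    obtain ⟨r, hr, hr', hrf⟩ := hex
    refine ⟨S, r, hS0, hSs.trans hs', min_le_right _ _, hr, hr'.trans (min_le_left _ _),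
      hr'.trans (min_le_right _ _), by linarith, fun t ht1 ht2 => ?_⟩
    have := hB t (hr.trans_le ht1) (ht2.trans hSs)
    linarith
  · push Not at hb
    set S := min s₀ δ with hS
    have hS0 : 0 < S := lt_min hs₀ hδ
    have hSs : S ≤ s₀ := min_le_left _ _
    set t₀ := min S (Gf S) with ht₀
    have ht₀0 : 0 < t₀ := lt_min hS0 (hG S hS0)
    have ht₀S : t₀ ≤ S := min_le_left _ _
    obtain ⟨K, hK⟩ := hf t₀ ht₀0 (ht₀S.trans hSs)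
    obtain ⟨t₁, h1, h2, h3⟩ := hb (max K M) t₀ ht₀0 (ht₀S.trans hSs)
    obtain ⟨K₁, hK₁⟩ := hf t₁ h1 (h2.trans (ht₀S.trans hSs))
    set T : Set ℝ := (fun t => |f t|) '' Icc t₁ t₀ with hT
    have hTne : T.Nonempty := ⟨_, t₁, ⟨le_rfl, h2⟩, rfl⟩
    have hTb : BddAbove T := by
      refine ⟨K₁, ?_⟩
      rintro _ ⟨t, ht, rfl⟩
      exact hK₁ t ht.1 (ht.2.trans (ht₀S.trans hSs))
    have hsup : |f t₁| ≤ sSup T := le_csSup hTb ⟨t₁, ⟨le_rfl, h2⟩, rfl⟩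
    have hM1 : max K M < |f t₁| := h3
    have hK' : K < |f t₁| := (le_max_left _ _).trans_lt hM1
    have hM' : M < |f t₁| := (le_max_right _ _).trans_lt hM1
    have hpos : 0 < sSup T := by linarith
    obtain ⟨_, ⟨r, hr, rfl⟩, hr2⟩ := exists_lt_of_lt_csSup hTne
      (show sSup T / 2 < sSup T by linarith)
    simp only at hr2
    refine ⟨S, r, hS0, hSs, min_le_right _ _, h1.trans_le hr.1, hr.2.trans ht₀S,
      hr.2.trans (min_le_right _ _), by linarith, fun t ht1 ht2 => ?_⟩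
    rcases le_or_gt t t₀ with h4 | h4
    · have : |f t| ≤ sSup T := le_csSup hTb ⟨t, ⟨hr.1.trans ht1, h4⟩, rfl⟩
      linarith
    · have := hK t h4.le (ht2.trans hSs)
      linarith

end Vale.Agent.P097.A5
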