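import Vale.Agent.P097.H920.Dom5
import Vale.Agent.P097.H192.ENorm

/-!
# P097 / case [c] / block (AI) (helper920): the two window lemmas over `W5` (Defs5 v3)

`no_iso5`, `no_iso5'` : isotropic limits are impossible.
`hon5` : at windows with honest limit lines and bounded `Im del`, `sin del → 0`.
-/

set_option linter.all false

open Complex Metric Filter Topology Set MeasureTheory
open scoped ComplexConjugate ENNReal

namespace Vale.Agent.P097.A5

open Vale.Agent.P097.TC Vale.Agent.P097.H85 Vale.Agent.P097.H929 Vale.Agent.P097.H920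
open Vale.Agent.P097.H190.Ult Vale.Agent.P097.H190.WO

/-- composition of a locally uniform limit with a continuous function -/
theorem tlu_comp {ι X : Type*} [PseudoMetricSpace X] [ProperSpace X] {l : Filter ι}
    {f : ι → X → ℂ} {g : X → ℂ} {U : Set X} (hU : IsOpen U)
    (h : TendstoLocallyUniformlyOn f g l U) (hg : ContinuousOn g U) {Ψ : ℂ → ℂ} {O : Set ℂ}
    (hO : IsOpen O) (hgO : ∀ z ∈ U, g z ∈ O) (hΨ : ContinuousOn Ψ O) :
    TendstoLocallyUniformlyOn (fun n z => Ψ (f n z)) (fun z => Ψ (g z)) l U := by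
  rw [Metric.tendstoLocallyUniformlyOn_iff]
  intro ε hε x hx
  obtain ⟨r, hr, h1⟩ := tlu_near hU h hx
  obtain ⟨h2, h3⟩ := h1 r le_rfl
  obtain ⟨N, hN, hNV, -, -, hU1⟩ := near_comp (ball_mem_nhds x hr) h3
    (hg.continuousAt (hU.mem_nhds hx)) hO (hgO x hx) hΨ
  refine ⟨N, mem_nhdsWithin_of_mem_nhds hN, ?_⟩
  filter_upwards [Metric.tendstoUniformlyOn_iff.1 hU1 ε hε] with n hn y hy
  exact hn y hy

theorem dF_add_int {b : ℝ} {F : ℂ → ℂ} (hF : ∀ x ∈ Sb b, F (x + 1) = F x + 2 * Real.pi) {x : ℂ}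
    (hx : x ∈ Sb b) (k : ℤ) : deriv F (x + k) = deriv F x := by
  have h1 : (fun y => F (y + k)) =ᶠ[𝓝 x] fun y => F y + k * (2 * Real.pi) := by
    filter_upwards [(isOpen_Sb b).mem_nhds hx] with y hy using F_add_int hF hy k
  have h2 := h1.deriv_eq
  rw [deriv_comp_add_const, deriv_add_const] at h2
  exact h2

/-- `e ^ (2 i D) = 1` implies `sin D = 0` -/
theorem sin_of_sq {D : ℂ} (h : Complex.exp (I * D) ^ 2 = 1) : Complex.sin D = 0 := by
  have h1 : Complex.exp (I * D) * Complex.exp (-(I * D)) = 1 := by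
    rw [← Complex.exp_add, add_neg_cancel, Complex.exp_zero]
  have h2 : Complex.exp (-(I * D)) = Complex.exp (I * D) := by
    have h3 : Complex.exp (I * D) ≠ 0 := Complex.exp_ne_zero _
    have h4 : Complex.exp (I * D) * Complex.exp (-(I * D)) =
        Complex.exp (I * D) * Complex.exp (I * D) := by rw [h1, ← pow_two, h]
    exact mul_left_cancel₀ h3 h4
  rw [Complex.sin]
  have e1 : -D * I = -(I * D) := by ring
  have e2 : D * I = I * D := by ring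
  rw [e1, e2, h2]
  ring

/-- `|e ^ (2 i D) - 1| = 2 |e ^ (i D)| |sin D|` -/
theorem norm_sq_sub (D : ℂ) :
    ‖Complex.exp (I * D) ^ 2 - 1‖ = 2 * ‖Complex.exp (I * D)‖ * ‖Complex.sin D‖ := by
  have h1 : Complex.exp (I * D) * Complex.exp (-(I * D)) = 1 := by
    rw [← Complex.exp_add, add_neg_cancel, Complex.exp_zero]
  have e1 : -D * I = -(I * D) := by ring
  have e2 : D * I = I * D := by ring
  have h2 : Complex.exp (I * D) ^ 2 - 1 = 2 * I * Complex.exp (I * D) * Complex.sin D := by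
    rw [Complex.sin, e1, e2]
    have hI : I * I = -1 := I_mul_I
    linear_combination (Complex.exp (I * D) ^ 2 -
      Complex.exp (I * D) * Complex.exp (-(I * D))) * hI + h1
  rw [h2, norm_mul, norm_mul, norm_mul, norm_I]
  simp

section

variable {Λ H : ℝ} {F q : ℂ → ℂ} {b m : ℝ} {Ψ : ℂ → ℂ} {Mj Mk B : Set (ℂ × ℂ)}
  {A : Set ℝ} {P : ℝ → ℂ} {c k : ℝ → ℝ} {K s y₀ u₀ σ : ℝ} {al p th : ℂ × ℂ → ℂ} {J : ℂ → ℂ}
  {y u r : ℕ → ℝ}

/-- **isotropic limits are impossible**, sign `+` -/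
theorem no_iso5 (W : W5 Λ H F q b m Ψ Mj Mk B A P c k K y₀ u₀ σ s al p th J)
    (S : Sq A y₀ u₀ y u) (T : Tou H P c u₀ σ th y u) (hr : Tendsto r atTop (𝓝 0)) {C c₁ : ℝ}
    (hc₁ : 0 < c₁) {h : ℕ → ℝ} (hN : ∀ n, Nst H b F P th C c₁ (h n) (y n) (u n))
    (hrh : ∀ n, 0 < r n ∧ r n < h n) {𝒰 : Ultrafilter ℕ} (h𝒰 : (𝒰 : Filter ℕ) ≤ atTop)
    (hI : Iso F q (s - σ) al p (fun n => kpt (P (u n)).im (c u₀) σ (y n) (u n) (r n)) 𝒰 1) :
    False := by
  obtain ⟨B', -, h1, h2⟩ := hI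
  refine pai_I W.crv.cv W.crv.Fp W.crv.qp (pd_of W S T hr hc₁ hN hrh h𝒰) (d := s - σ)
    (sub_pos.2 W.σs) (B' := B') ?_ ?_ ?_
  · intro z hz
    obtain ⟨V, hV, hev⟩ := lines_wd W S (tendsto_pos hr fun n => (hrh n).1) (z := z) hz
    exact ⟨V, hV, h𝒰 hev⟩
  · simp only [one_mul] at h1
    exact h1
  · simp only [one_mul] at h2
    exact h2

/-- **isotropic limits are impossible**, sign `-` -/
theorem no_iso5' (W : W5 Λ H F q b m Ψ Mj Mk B A P c k K y₀ u₀ σ s al p th J)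
    (S : Sq A y₀ u₀ y u) (T : Tou H P c u₀ σ th y u) (hr : Tendsto r atTop (𝓝 0)) {C c₁ : ℝ}
    (hc₁ : 0 < c₁) {h : ℕ → ℝ} (hN : ∀ n, Nst H b F P th C c₁ (h n) (y n) (u n))
    (hrh : ∀ n, 0 < r n ∧ r n < h n) {𝒰 : Ultrafilter ℕ} (h𝒰 : (𝒰 : Filter ℕ) ≤ atTop)
    (hI : Iso F q (s - σ) al p (fun n => kpt (P (u n)).im (c u₀) σ (y n) (u n) (r n)) 𝒰 (-1)) :
    False := by
  obtain ⟨B', -, h1, h2⟩ := hI
  have e1 : ∀ x : ℂ, (-1 : ℂ) * (I * x) = -I * x := fun x => by ring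
  refine pai_I' W.crv.cv W.crv.Fp W.crv.qp (pd_of W S T hr hc₁ hN hrh h𝒰) (d := s - σ)
    (sub_pos.2 W.σs) (B' := B') ?_ ?_ ?_
  · intro z hz
    obtain ⟨V, hV, hev⟩ := lines_wd W S (tendsto_pos hr fun n => (hrh n).1) (z := z) hz
    exact ⟨V, hV, h𝒰 hev⟩
  · simp only [neg_one_mul] at h1
    exact h1
  · simp only [e1] at h2
    exact h2

/-- **honest limits**: the windows are tangential -/
theorem hon5 (W : W5 Λ H F q b m Ψ Mj Mk B A P c k K y₀ u₀ σ s al p th J)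
    (S : Sq A y₀ u₀ y u) (T : Tou H P c u₀ σ th y u) (hr : Tendsto r atTop (𝓝 0)) {C c₁ : ℝ}
    (hC : 0 < C) (hc₁ : 0 < c₁) {h : ℕ → ℝ}
    (hN : ∀ n, Nst H b F P th C c₁ (h n) (y n) (u n))
    (hrh : ∀ n, 0 < r n ∧ r n < h n) {𝒰 : Ultrafilter ℕ} (h𝒰 : (𝒰 : Filter ℕ) ≤ atTop) {V₀ : ℝ}
    (hV : ∀ᶠ n in (𝒰 : Filter ℕ), |Vn F P al th y u n (r n)| ≤ V₀)
    (hI : Hon F q (s - σ) al p (fun n => kpt (P (u n)).im (c u₀) σ (y n) (u n) (r n)) 𝒰) :
    Tendsto (fun n => Complex.sin (del F al th (vp P (y n) (u n) (r n)))) (𝒰 : Filter ℕ)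
      (𝓝 0) := by
  obtain ⟨N', al', p', dal', dp', hal, hp⟩ := hI
  have hr' := tendsto_pos hr fun n => (hrh n).1
  set M : ℝ := |σ| + K + 1 with hM
  have hM0 : 0 ≤ M := by have := abs_nonneg σ; have := W.K0; linarith
  set φ : ℕ → ℂ × ℂ → ℂ × ℂ := fun n => kpt (P (u n)).im (c u₀) σ (y n) (u n) (r n) with hφ
  have hvtx : ∀ n, φ n (-I, 0) = vp P (y n) (u n) (r n) := fun n => kpt_vtx _ _ _ _ _ _
  obtain ⟨N, θ, dθ, hlim, hθ⟩ := lim_om W S hr' hc₁ hN hrh h𝒰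
  -- the functions of the normality theorem
  set e : ℕ → ℂ × ℂ → ℂ := fun n z => Complex.exp (I * del F al th (φ n z)) with he
  set hh : ℕ → ℂ × ℂ → ℂ := fun n z => deriv F (th (φ n z)) with hhh
  set h₀ : ℂ × ℂ → ℂ := fun z => deriv F (θ z) with hh₀
  have hD : H192.Dat (𝒰 : Filter ℕ) e hh (Om M) := by
    intro z hz
    obtain ⟨ρ, hρ, hs, hev⟩ := th_om W S hr' hz
    refine ⟨ρ, hρ, h𝒰 (hev.mono fun n hn => ⟨?_, fun z' hz' => ⟨Complex.exp_ne_zero _, fun h1 => ?_⟩⟩)⟩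
    · have hF : DifferentiableOn ℂ (fun z' => F (th (φ n z'))) (ball z ρ) :=
        W.crv.cv.dF.comp hn.1 fun z' hz' => W.mem _ (hn.2.2 z' hz')
      exact ((hn.2.1.sub hF).const_mul I).cexp
    · have hm := hn.2.2 z' hz'
      have h2 : Complex.sin (del F al th (φ n z')) = 0 := sin_of_sq h1
      have h3 := Mi_deriv_root W.crv.cv (W.mem _ hm) (W.inc _ hm)
      have h4 : Complex.sin (al (φ n z') - F (th (φ n z'))) = 0 := h2
      rw [h4, mul_zero, mul_eq_zero] at h3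
      exact h3.resolve_right (W.smp _ hm)
  have hdh : DifferentiableOn ℂ h₀ (Om M) :=
    (Cv.dF1 W.crv.cv).comp dθ fun z hz => hθ z hz
  have hth : TendstoLocallyUniformlyOn hh h₀ (𝒰 : Filter ℕ) (Om M) := by
    have h1 := tlu_comp (isOpen_Om M) hlim dθ.continuousOn (isOpen_Sb H) hθ
      (Cv.dF1 W.crv.cv).continuousOn
    rw [Metric.tendstoLocallyUniformlyOn_iff] at h1 ⊢
    intro ε hε z hz
    obtain ⟨t, ht, hn⟩ := h1 ε hε z hz
    obtain ⟨ρ, hρ, hs, hev⟩ := near_om W S hr' hz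
    refine ⟨t ∩ ball z ρ, inter_mem ht (mem_nhdsWithin_of_mem_nhds (ball_mem_nhds _ hρ)), ?_⟩
    filter_upwards [hn, h𝒰 hev] with n k1 k2 z' hz'
    have k3 := k1 z' hz'.1
    have k4 := dF_add_int W.crv.Fp (W.mem _ (k2 z' hz'.2)) (-N n)
    have k5 : th (kpt (P (u n)).im (c u₀) σ (y n) (u n) (r n) z') - (N n : ℂ) =
        th (kpt (P (u n)).im (c u₀) σ (y n) (u n) (r n) z') + ((-N n : ℤ) : ℂ) := by
      push_cast; ring
    rw [k5, k4] at k3
    exact k3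
  -- a point with `h₀ ≠ 0`
  have hne : ∃ z₁ ∈ Om M, h₀ z₁ ≠ 0 := by
    have hex : ∀ n, ∃ κ : ℂ, |κ.re| ≤ C ∧ -C ≤ κ.im ∧ κ.im ≤ -(1 / C) ∧
        c₁ ≤ ‖deriv F (th (φ n (κ, 0)))‖ := by
      intro n
      obtain ⟨y', S', h1, h2, h3, h4⟩ := (hN n).nr2 (r n) (hrh n).1 (hrh n).2
      have hrn := (hrh n).1
      refine ⟨(((y' - y n) / r n : ℝ) : ℂ) - ((S' / r n : ℝ) : ℂ) * I, ?_, ?_, ?_, ?_⟩
      · have e1 : ((((y' - y n) / r n : ℝ) : ℂ) - ((S' / r n : ℝ) : ℂ) * I).re =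
            (y' - y n) / r n := by
          rw [sub_re, re_ofReal_mul, I_re, mul_zero, ofReal_re, sub_zero]
        rw [e1, abs_div, abs_of_pos hrn, div_le_iff₀ hrn]
        exact h1
      · have e1 : ((((y' - y n) / r n : ℝ) : ℂ) - ((S' / r n : ℝ) : ℂ) * I).im =
            -(S' / r n) := by
          rw [sub_im, im_ofReal_mul, I_im, mul_one, ofReal_im, zero_sub]
        rw [e1, neg_le_neg_iff, div_le_iff₀ hrn]
        exact h3
      · have e1 : ((((y' - y n) / r n : ℝ) : ℂ) - ((S' / r n : ℝ) : ℂ) * I).im =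
            -(S' / r n) := by
          rw [sub_im, im_ofReal_mul, I_im, mul_one, ofReal_im, zero_sub]
        rw [e1, neg_le_neg_iff, div_le_div_iff₀ hC hrn]
        linarith
      · have e2 : φ n (((((y' - y n) / r n : ℝ) : ℂ) - ((S' / r n : ℝ) : ℂ) * I), 0) =
            vp P y' (u n) S' := by
          rw [hφ]
          simp only
          rw [kpt_eq, vp]
          have hrc : (r n : ℂ) ≠ 0 := by exact_mod_cast hrn.ne'
          refine Prod.ext ?_ ?_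
          · simp only [mul_zero, add_zero]
            push_cast
            field_simp
            ring
          · simp
        rw [e2]
        exact h4
    choose κ k1 k2 k3 k4 using hex
    set K0 : Set ℂ := Icc (-C) C ×ℂ Icc (-C) (-(1 / C)) with hK0
    have hK0c : IsCompact K0 := isCompact_Icc.reProdIm isCompact_Icc
    have hmem : ∀ n, κ n ∈ K0 := fun n => by
      rw [hK0, Complex.mem_reProdIm]
      exact ⟨abs_le.1 (k1 n), ⟨k2 n, k3 n⟩⟩
    obtain ⟨κ', hκ', hlimκ⟩ := hK0c.ultrafilter_le_nhds (𝒰.map κ) (by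
      rw [le_principal_iff]
      exact Filter.mem_map.2 (Filter.univ_mem' hmem))
    have hκt : Tendsto κ (𝒰 : Filter ℕ) (𝓝 κ') := hlimκ
    have hκim : κ'.im < 0 := by
      rw [hK0, Complex.mem_reProdIm] at hκ'
      have : 0 < 1 / C := by positivity
      linarith [hκ'.2.2]
    have hz₁ : ((κ', 0) : ℂ × ℂ) ∈ Om M := by
      right
      show κ'.im < -(M * ‖(0 : ℂ)‖)
      simpa using hκim
    refine ⟨(κ', 0), hz₁, ?_⟩
    have h5 : Tendsto (fun n => ((κ n, 0) : ℂ × ℂ)) (𝒰 : Filter ℕ) (𝓝 ((κ', 0) : ℂ × ℂ)) :=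
      hκt.prodMk_nhds tendsto_const_nhds
    have h6 : Tendsto (fun n => ((κ n, 0) : ℂ × ℂ)) (𝒰 : Filter ℕ)
        (𝓝[Om M] ((κ', 0) : ℂ × ℂ)) := by
      rw [(isOpen_Om M).nhdsWithin_eq hz₁]
      exact h5
    have h7 := hth.tendsto_comp (hdh.continuousOn _ hz₁) hz₁ h6
    have h8 := h7.norm
    have h9 : c₁ ≤ ‖h₀ (κ', 0)‖ := ge_of_tendsto h8 (Eventually.of_forall fun n => k4 n)
    intro h0
    rw [h0, norm_zero] at h9
    linarith
  obtain ⟨z₁, hz₁, hz₁0⟩ := hne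
  -- the value at the vertical
  have hnorm : ∀ n, ‖e n (-I, 0)‖ = Real.exp (-(Vn F P al th y u n (r n))) := by
    intro n
    simp only [he]
    rw [norm_exp_I_mul, hvtx n]
    rfl
  have hvm : ((-I, 0) : ℂ × ℂ) ∈ Om M := Or.inr (vtx_mem M)
  have hlow : ∀ᶠ n in (𝒰 : Filter ℕ), Real.exp (-V₀) ≤ ‖e n (-I, 0)‖ := by
    filter_upwards [hV] with n hn
    rw [hnorm n, Real.exp_le_exp]
    linarith [(abs_le.1 hn).2]
  have hup : ∀ᶠ n in (𝒰 : Filter ℕ), ‖e n (-I, 0)‖ ≤ Real.exp V₀ := by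
    filter_upwards [hV] with n hn
    rw [hnorm n, Real.exp_le_exp]
    linarith [(abs_le.1 hn).1]
  rcases H192.enorm 𝒰 (isOpen_Om M) (precon_Om hM0) hD hdh hth hz₁ hz₁0 with
    ⟨e₀, de, ne, te⟩ | te | te
  rotate_left
  · exfalso
    have h1 : Tendsto (fun n => e n (-I, 0)) (𝒰 : Filter ℕ) (𝓝 0) := te.tendsto_at hvm
    have h2 := h1.norm
    rw [norm_zero] at h2
    have h3 := ge_of_tendsto h2 hlow
    linarith [Real.exp_pos (-V₀)]
  · exfalso
    have h1 : Tendsto (fun n => (e n (-I, 0))⁻¹) (𝒰 : Filter ℕ) (𝓝 0) := te.tendsto_at hvm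
    have h2 := h1.norm
    rw [norm_zero] at h2
    have h3 : ∀ᶠ n in (𝒰 : Filter ℕ), Real.exp (-V₀) ≤ ‖(e n (-I, 0))⁻¹‖ := by
      filter_upwards [hup] with n hn
      rw [norm_inv, Real.exp_neg]
      exact inv_anti₀ (by rw [hnorm n]; exact Real.exp_pos _) hn
    have h4 := ge_of_tendsto h2 h3
    linarith [Real.exp_pos (-V₀)]
  -- the good case
  have hsq : ∀ z ∈ Om M, Tendsto (fun n => ‖e n z ^ 2 - 1‖) (𝒰 : Filter ℕ)
      (𝓝 ‖e₀ z ^ 2 - 1‖) := fun z hz => (((te.tendsto_at hz).pow 2).sub_const 1).norm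
  have hsin : ∀ z ∈ Om M, Tendsto (fun n => ‖Complex.sin (del F al th (φ n z))‖)
      (𝒰 : Filter ℕ) (𝓝 (‖e₀ z ^ 2 - 1‖ / (2 * ‖e₀ z‖))) := by
    intro z hz
    have h1 := (hsq z hz).div (((te.tendsto_at hz).norm).const_mul 2)
      (by have := norm_pos_iff.2 (ne z hz); positivity)
    refine h1.congr fun n => ?_
    show ‖e n z ^ 2 - 1‖ / (2 * ‖e n z‖) = ‖Complex.sin (del F al th (φ n z))‖
    simp only [he]
    rw [norm_sq_sub]
    have h2 : ‖Complex.exp (I * del F al th (φ n z))‖ ≠ 0 :=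
      norm_ne_zero_iff.2 (Complex.exp_ne_zero _)
    field_simp
  by_cases hall : e₀ (-I, 0) ^ 2 = 1
  · rw [tendsto_zero_iff_norm_tendsto_zero]
    have h1 := hsin _ hvm
    rw [hall, sub_self, norm_zero, zero_div] at h1
    refine h1.congr fun n => ?_
    rw [hvtx n]
  · exfalso
    have hex : ∃ z₂ ∈ Nr, e₀ z₂ ^ 2 ≠ 1 := by
      by_contra hcon
      push Not at hcon
      have hdiff : DifferentiableOn ℂ (fun z => e₀ z ^ 2 - 1) (Om M) :=
        (de.pow 2).sub_const 1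
      have han := Vale.Agent.P097.Hol.analyticOnNhd_of_differentiableOn (isOpen_Om M) hdiff
      have hzN : ((-I, I) : ℂ × ℂ) ∈ Nr := by
        constructor
        · show (-I : ℂ).im < 0
          simp
        · show 0 < (I : ℂ).im
          simp
      have hev : (fun z => e₀ z ^ 2 - 1) =ᶠ[𝓝 ((-I, I) : ℂ × ℂ)] 0 := by
        filter_upwards [isOpen_Nr.mem_nhds hzN] with z hz
        show e₀ z ^ 2 - 1 = 0
        rw [hcon z hz, sub_self]
      have h1 := han.eqOn_zero_of_preconnected_of_eventuallyEq_zero (precon_Om hM0)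
        (Or.inl hzN) hev hvm
      have h2 : e₀ (-I, 0) ^ 2 - 1 = 0 := h1
      exact hall (by linear_combination h2)
    obtain ⟨z₂, hz₂, hne₂⟩ := hex
    have hz₂O : z₂ ∈ Om M := Or.inl hz₂
    have hpos : 0 < ‖e₀ z₂ ^ 2 - 1‖ / (2 * ‖e₀ z₂‖) := by
      have h1 : 0 < ‖e₀ z₂ ^ 2 - 1‖ := norm_pos_iff.2 (sub_ne_zero.2 hne₂)
      have h2 : 0 < ‖e₀ z₂‖ := norm_pos_iff.2 (ne z₂ hz₂O)
      positivity
    set cc : ℝ := ‖e₀ z₂ ^ 2 - 1‖ / (2 * ‖e₀ z₂‖) / 2 with hcc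
    have hcc0 : 0 < cc := by positivity
    have hnt : ∀ᶠ n in (𝒰 : Filter ℕ), cc ≤ ‖Complex.sin (al (φ n z₂) - F (th (φ n z₂)))‖ := by
      filter_upwards [(hsin z₂ hz₂O).eventually (lt_mem_nhds (show cc <
        ‖e₀ z₂ ^ 2 - 1‖ / (2 * ‖e₀ z₂‖) by rw [hcc]; linarith))] with n hn
      exact hn.le
    refine pai_H W.crv.cv W.crv.Fp W.crv.qp (pd_of W S T hr hc₁ hN hrh h𝒰) (d := s - σ)
      (sub_pos.2 W.σs) (N' := N') (al' := al') (p' := p') ?_ hal hp (z₁ := z₂) hz₂ hcc0 hnt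
    intro z hz
    obtain ⟨V, hV, hev⟩ := lines_wd W S hr' (z := z) hz
    exact ⟨V, hV, h𝒰 hev⟩

end

end Vale.Agent.P097.A5
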